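import Mathlib

namespace Vale.Agent.Lib.P201

open MonoidAlgebra

section Anti

variable {K G : Type*} [Field K] [Group G]

/-- The antipode of the group algebra. -/
noncomputable def anti : MonoidAlgebra K G ≃+ MonoidAlgebra K G :=
  mapDomainAddEquiv K (Equiv.inv G)

theorem anti_single (g : G) (c : K) : anti (single g c) = single g⁻¹ c := by
  simp [anti, mapDomainAddEquiv_single]

theorem anti_mul (a b : MonoidAlgebra K G) : anti (a * b) = anti b * anti a := by
  induction a using MonoidAlgebra.induction_linear with
  | zero => simp
  | add x y hx hy => rw [add_mul, map_add, map_add, mul_add, hx, hy]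
  | single g c =>
    induction b using MonoidAlgebra.induction_linear with
    | zero => simp
    | add x y hx hy => rw [mul_add, map_add, map_add, add_mul, hx, hy]
    | single h d =>
      rw [single_mul_single, anti_single, anti_single, anti_single, single_mul_single]
      simp [mul_comm]

theorem anti_eq_zero {a : MonoidAlgebra K G} (h : anti a = 0) : a = 0 :=
  anti.injective (by rw [h, map_zero])

end Anti

end Vale.Agent.Lib.P201
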