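import Mathlib

namespace Vale.Agent.Lib.P201

open MonoidAlgebra

section Rec

variable {K G Q : Type*} [Field K] [Group G]

/-- One step of the extremal argument for the three term recurrence. -/
theorem row_step (x y : G) (l m : K) (hl : l ≠ 0) (hm : m ≠ 0)
    (hy : orderOf y = 0)
    (π : Q → Q) (c : G → Q) (f : G → ℤ) (δ w : Q → ℤ)
    (hcx : ∀ g, c (x⁻¹ * g) = π (c g)) (hcy : ∀ g, c (y⁻¹ * g) = c g)
    (hfx : ∀ g, f (x⁻¹ * g) = f g - δ (c g)) (hfy : ∀ g, f (y⁻¹ * g) = f g - w (c g))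
    (b : G →₀ K) (hrec : ∀ g, b g + l * b (x⁻¹ * g) + m * b (y⁻¹ * g) = 0)
    (g₀ : G) (h0 : b g₀ ≠ 0) (hmax : ∀ g, b g ≠ 0 → c g = c g₀ → f g ≤ f g₀) :
    ∃ g₁, b g₁ ≠ 0 ∧ c g₁ = π (c g₀) ∧ f g₀ + max 0 (w (c g₀)) - δ (c g₀) ≤ f g₁ := by
  rcases lt_trichotomy (w (c g₀)) 0 with hw | hw | hw
  · have h1 : b (y⁻¹ * g₀) = 0 := by
      by_contra hne
      have := hmax _ hne (hcy g₀)
      rw [hfy] at this
      omega
    have h2 := hrec g₀
    rw [h1, mul_zero, add_zero] at h2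
    have h3 : b (x⁻¹ * g₀) ≠ 0 := by
      intro h
      rw [h, mul_zero, add_zero] at h2
      exact h0 h2
    refine ⟨x⁻¹ * g₀, h3, hcx g₀, ?_⟩
    rw [hfx, max_eq_left hw.le]
    omega
  · -- the level is preserved by `y`
    have hlev : ∃ g, c g = c g₀ ∧ f g = f g₀ ∧ b g + m * b (y⁻¹ * g) ≠ 0 := by
      by_contra hall
      push Not at hall
      have hk : ∀ k : ℕ, c ((y⁻¹) ^ k * g₀) = c g₀ ∧ f ((y⁻¹) ^ k * g₀) = f g₀ ∧
          b ((y⁻¹) ^ k * g₀) ≠ 0 := by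
        intro k
        induction k with
        | zero => simpa using h0
        | succ k ih =>
          obtain ⟨h1, h2, h3⟩ := ih
          have he : (y⁻¹) ^ (k + 1) * g₀ = y⁻¹ * ((y⁻¹) ^ k * g₀) := by
            rw [pow_succ', mul_assoc]
          rw [he]
          refine ⟨by rw [hcy, h1], by rw [hfy, h2, h1, hw]; omega, ?_⟩
          intro hz
          apply h3
          have := hall _ h1 h2
          rw [hz, mul_zero, add_zero] at this
          exact this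
      have hinj : Function.Injective fun k : ℕ => (y⁻¹) ^ k * g₀ := by
        intro a b' hab
        have h1 : (y⁻¹) ^ a = (y⁻¹) ^ b' := mul_right_cancel hab
        have h2 : orderOf y⁻¹ = 0 := by rw [orderOf_inv]; exact hy
        have h3 : ¬ IsOfFinOrder y⁻¹ := orderOf_eq_zero_iff.mp h2
        exact (injective_pow_iff_not_isOfFinOrder.mpr h3) h1
      have hinf : (↑b.support : Set G).Infinite :=
        Set.infinite_of_injective_forall_mem hinj (fun k => by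
          simpa using (hk k).2.2)
      exact hinf b.support.finite_toSet
    obtain ⟨g, h1, h2, h3⟩ := hlev
    have h4 := hrec g
    have h5 : b (x⁻¹ * g) ≠ 0 := by
      intro hz
      rw [hz, mul_zero, add_zero] at h4
      exact h3 h4
    refine ⟨x⁻¹ * g, h5, by rw [hcx, h1], ?_⟩
    rw [hfx, h1, h2, hw]
    simp
  · set g := y * g₀ with hgdef
    have hg : y⁻¹ * g = g₀ := by simp [hgdef]
    have hcg : c g = c g₀ := by rw [← hcy g, hg]
    have hfg : f g = f g₀ + w (c g₀) := by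
      have := hfy g
      rw [hg, hcg] at this
      omega
    have h1 : b g = 0 := by
      by_contra hne
      have := hmax g hne hcg
      omega
    have h2 := hrec g
    rw [h1, hg, zero_add] at h2
    have h3 : b (x⁻¹ * g) ≠ 0 := by
      intro h
      rw [h, mul_zero, zero_add] at h2
      exact h0 ((mul_eq_zero.mp h2).resolve_left hm)
    refine ⟨x⁻¹ * g, h3, ?_, ?_⟩
    · rw [hcx, hcg]
    · rw [hfx, hcg, hfg, max_eq_right hw.le]

/-- Summing the extremal inequality around the cycle. -/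
theorem sum_bound [Fintype Q] (x y : G) (l m : K) (hl : l ≠ 0) (hm : m ≠ 0)
    (hy : orderOf y = 0)
    (π : Equiv.Perm Q) (htrans : ∀ q q' : Q, ∃ k : ℕ, (π ^ k) q = q')
    (c : G → Q) (f : G → ℤ) (δ w : Q → ℤ)
    (hcx : ∀ g, c (x⁻¹ * g) = π (c g)) (hcy : ∀ g, c (y⁻¹ * g) = c g)
    (hfx : ∀ g, f (x⁻¹ * g) = f g - δ (c g)) (hfy : ∀ g, f (y⁻¹ * g) = f g - w (c g))
    (b : G →₀ K) (hb : b ≠ 0)
    (hrec : ∀ g, b g + l * b (x⁻¹ * g) + m * b (y⁻¹ * g) = 0) :
    ∑ q, max 0 (w q) ≤ ∑ q, δ q := by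
  classical
  have hmaxex : ∀ q, (∃ g, b g ≠ 0 ∧ c g = q) →
      ∃ g, b g ≠ 0 ∧ c g = q ∧ ∀ g', b g' ≠ 0 → c g' = q → f g' ≤ f g := by
    intro q ⟨g, h1, h2⟩
    have hne : (b.support.filter fun g => c g = q).Nonempty :=
      ⟨g, by simp [h1, h2]⟩
    obtain ⟨g₀, h3, h4⟩ := Finset.exists_max_image _ f hne
    simp only [Finset.mem_filter, Finsupp.mem_support_iff] at h3 h4
    exact ⟨g₀, h3.1, h3.2, fun g' h5 h6 => h4 g' ⟨h5, h6⟩⟩
  have hstep : ∀ q, (∃ g, b g ≠ 0 ∧ c g = q) → ∃ g, b g ≠ 0 ∧ c g = π q := by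
    intro q hq
    obtain ⟨g₀, h1, h2, h3⟩ := hmaxex q hq
    subst h2
    obtain ⟨g₁, h4, h5, _⟩ := row_step x y l m hl hm hy π c f δ w hcx hcy hfx hfy b hrec g₀ h1 h3
    exact ⟨g₁, h4, h5⟩
  obtain ⟨g₁, hg₁⟩ : ∃ g, b g ≠ 0 := by
    by_contra hall
    push Not at hall
    exact hb (Finsupp.ext hall)
  have hall : ∀ q, ∃ g, b g ≠ 0 ∧ c g = q := by
    intro q
    obtain ⟨k, hk⟩ := htrans (c g₁) q
    have hiter : ∀ j : ℕ, ∃ g, b g ≠ 0 ∧ c g = (π ^ j) (c g₁) := by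
      intro j
      induction j with
      | zero => exact ⟨g₁, hg₁, rfl⟩
      | succ j ih =>
        have := hstep _ ih
        rwa [← Equiv.Perm.mul_apply, ← pow_succ'] at this
    rw [← hk]
    exact hiter k
  choose G₀ h1 h2 h3 using fun q => hmaxex q (hall q)
  have hineq : ∀ q, f (G₀ q) + max 0 (w q) - δ q ≤ f (G₀ (π q)) := by
    intro q
    have h4 : ∀ g', b g' ≠ 0 → c g' = c (G₀ q) → f g' ≤ f (G₀ q) := by
      intro g' h5 h6
      rw [h2 q] at h6
      exact h3 q g' h5 h6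
    obtain ⟨g₁', h5, h6, h7⟩ :=
      row_step x y l m hl hm hy π c f δ w hcx hcy hfx hfy b hrec (G₀ q) (h1 q) h4
    rw [h2 q] at h6 h7
    exact h7.trans (h3 (π q) g₁' h5 h6)
  have hsum : ∑ q, (f (G₀ q) + max 0 (w q) - δ q) ≤ ∑ q, f (G₀ (π q)) :=
    Finset.sum_le_sum fun q _ => hineq q
  rw [Equiv.sum_comp π (fun q => f (G₀ q))] at hsum
  rw [Finset.sum_sub_distrib, Finset.sum_add_distrib] at hsum
  omega

/-- Conclusion of the extremal argument: all the weights vanish. -/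
theorem weights_zero [Fintype Q] (x y : G) (l m : K) (hl : l ≠ 0) (hm : m ≠ 0)
    (hy : orderOf y = 0)
    (π : Equiv.Perm Q) (htrans : ∀ q q' : Q, ∃ k : ℕ, (π ^ k) q = q')
    (c : G → Q) (f : G → ℤ) (δ w : Q → ℤ)
    (hcx : ∀ g, c (x⁻¹ * g) = π (c g)) (hcy : ∀ g, c (y⁻¹ * g) = c g)
    (hfx : ∀ g, f (x⁻¹ * g) = f g - δ (c g)) (hfy : ∀ g, f (y⁻¹ * g) = f g - w (c g))
    (b : G →₀ K) (hb : b ≠ 0)
    (hrec : ∀ g, b g + l * b (x⁻¹ * g) + m * b (y⁻¹ * g) = 0) :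
    (∀ q, w q = 0) ∧ ∑ q, δ q = 0 := by
  have h1 := sum_bound x y l m hl hm hy π htrans c f δ w hcx hcy hfx hfy b hb hrec
  have h2 := sum_bound x y l m hl hm hy π htrans c (fun g => - f g) (fun q => - δ q)
    (fun q => - w q) hcx hcy (fun g => by rw [hfx]; ring) (fun g => by rw [hfy]; ring) b hb hrec
  rw [Finset.sum_neg_distrib] at h2
  have h3 : (0 : ℤ) ≤ ∑ q, max 0 (w q) := Finset.sum_nonneg fun q _ => le_max_left _ _
  have h4 : (0 : ℤ) ≤ ∑ q, max 0 (- w q) := Finset.sum_nonneg fun q _ => le_max_left _ _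
  have h5 : ∑ q, max 0 (w q) = 0 := by omega
  have h6 : ∑ q, max 0 (- w q) = 0 := by omega
  refine ⟨fun q => ?_, by omega⟩
  have h7 := (Finset.sum_eq_zero_iff_of_nonneg (fun q _ => le_max_left _ _)).mp h5 q
    (Finset.mem_univ q)
  have h8 := (Finset.sum_eq_zero_iff_of_nonneg (fun q _ => le_max_left _ _)).mp h6 q
    (Finset.mem_univ q)
  have h9 : w q ≤ 0 := by
    have := le_max_right 0 (w q)
    omega
  have h10 : - w q ≤ 0 := by
    have := le_max_right 0 (- w q)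
    omega
  omega

end Rec

end Vale.Agent.Lib.P201
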