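import Mathlib
import Vale.Agent.Lib.P201.Core

namespace Vale.Agent.Lib.P201

open MonoidAlgebra

section Coset

variable {G : Type*} [Group G]

/-- The component in `H` of `g` with respect to a choice of right coset representatives. -/
noncomputable def rightPart (H : Subgroup G) (g : G) : G :=
  g * (Quotient.out (Quotient.mk (QuotientGroup.rightRel H) g))⁻¹

theorem rightPart_mem (H : Subgroup G) (g : G) : rightPart H g ∈ H := by
  have h : (QuotientGroup.rightRel H) (Quotient.out (Quotient.mk (QuotientGroup.rightRel H) g)) g :=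
    Quotient.exact (Quotient.out_eq _)
  rw [QuotientGroup.rightRel_apply] at h
  exact h

theorem rightPart_mul (H : Subgroup G) {h : G} (hh : h ∈ H) (g : G) :
    rightPart H (h * g) = h * rightPart H g := by
  have h1 : Quotient.mk (QuotientGroup.rightRel H) (h * g) =
      Quotient.mk (QuotientGroup.rightRel H) g := by
    apply Quotient.sound
    show (QuotientGroup.rightRel H) (h * g) g
    rw [QuotientGroup.rightRel_apply]
    simpa using H.inv_mem hh
  unfold rightPart
  rw [h1, mul_assoc]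

end Coset

section Levels

variable {G : Type*} [Group G]

/-- Every element of the subgroup generated by `x` and `y` is a power of `x` modulo any
subgroup containing `y` and normalised by the powers of `x`. -/
theorem dec_mod (x y : G) (N : Subgroup G) (hx : ∀ (i : ℤ), ∀ s ∈ N, x ^ i * s * x ^ (-i) ∈ N)
    (hyN : y ∈ N) (h : G) (hh : h ∈ Subgroup.closure {x, y}) :
    ∃ i : ℤ, x ^ (-i) * h ∈ N := by
  induction hh using Subgroup.closure_induction with
  | mem a ha =>
    rcases ha with rfl | ha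
    · exact ⟨1, by simp⟩
    · rw [Set.mem_singleton_iff] at ha
      subst ha
      exact ⟨0, by simpa using hyN⟩
  | one => exact ⟨0, by simp⟩
  | mul a b _ _ iha ihb =>
    obtain ⟨i, hi⟩ := iha
    obtain ⟨j, hj⟩ := ihb
    refine ⟨i + j, ?_⟩
    have h1 := N.mul_mem (hx (-j) _ hi) hj
    have h2 : x ^ (-j) * (x ^ (-i) * a) * x ^ (- -j) * (x ^ (-j) * b) = x ^ (-(i + j)) * (a * b) := by
      have h3 : x ^ (-(i + j)) = x ^ (-j) * x ^ (-i) := by
        rw [← zpow_add]; congr 1; ring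
      rw [h3]
      simp only [neg_neg, mul_assoc, zpow_neg]
      group
    rwa [h2] at h1
  | inv a _ iha =>
    obtain ⟨i, hi⟩ := iha
    refine ⟨-i, ?_⟩
    have h1 := hx i _ (N.inv_mem hi)
    have h2 : x ^ i * (x ^ (-i) * a)⁻¹ * x ^ (-i) = x ^ (- -i) * a⁻¹ := by
      simp only [neg_neg, mul_inv_rev, zpow_neg, inv_inv]
      group
    rwa [h2] at h1

/-- The level data attached to a normal subgroup of finite index containing `y`. -/
theorem exists_levels (x y : G) (N : Subgroup G)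
    (hx : ∀ (i : ℤ), ∀ s ∈ N, x ^ i * s * x ^ (-i) ∈ N)
    (hyN : y ∈ N) (n : ℕ) [NeZero n] (hxn : x ^ n ∈ N)
    (hdvd : ∀ k : ℤ, x ^ k ∈ N → (n : ℤ) ∣ k)
    (φ : G → ℤ) (hφ : ∀ a ∈ N, ∀ b ∈ N, φ (a * b) = φ a + φ b) :
    ∃ (c : G → ZMod n) (f : G → ℤ) (δ w : ZMod n → ℤ),
      (∀ g, c (x⁻¹ * g) = c g - 1) ∧ (∀ g, c (y⁻¹ * g) = c g) ∧
      (∀ g, f (x⁻¹ * g) = f g - δ (c g)) ∧ (∀ g, f (y⁻¹ * g) = f g - w (c g)) ∧
      (∀ q, w q = φ (x ^ (-(q.val : ℤ)) * y * x ^ (q.val : ℤ))) ∧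
      ∑ q, δ q = φ (x ^ n) := by
  classical
  have hn : 0 < n := Nat.pos_of_ne_zero (NeZero.ne n)
  set H := Subgroup.closure ({x, y} : Set G) with hH
  have hxH : x ∈ H := Subgroup.subset_closure (by simp)
  have hyH : y ∈ H := Subgroup.subset_closure (by simp)
  have hφ1 : φ 1 = 0 := by
    have := hφ 1 N.one_mem 1 N.one_mem
    simp only [mul_one] at this
    omega
  have hφinv : ∀ a ∈ N, φ a⁻¹ = - φ a := by
    intro a ha
    have := hφ a ha a⁻¹ (N.inv_mem ha)
    rw [mul_inv_cancel, hφ1] at this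
    omega
  -- the class
  have hdec : ∀ g, ∃ i : ℤ, x ^ (-i) * rightPart H g ∈ N := fun g =>
    dec_mod x y N hx hyN _ (rightPart_mem H g)
  choose I hI using hdec
  let c : G → ZMod n := fun g => (I g : ZMod n)
  have hU : ∀ g (j : ℤ), x ^ (-j) * rightPart H g ∈ N → c g = (j : ZMod n) := by
    intro g j hj
    have h1 := N.mul_mem (hI g) (N.inv_mem hj)
    have h2 : x ^ (-I g) * rightPart H g * (x ^ (-j) * rightPart H g)⁻¹ = x ^ (j - I g) := by
      simp only [mul_inv_rev, zpow_neg, inv_inv]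
      rw [sub_eq_add_neg, add_comm, zpow_add, zpow_neg]
      group
    rw [h2] at h1
    have h3 := hdvd _ h1
    have h4 : ((j - I g : ℤ) : ZMod n) = 0 := (ZMod.intCast_zmod_eq_zero_iff_dvd _ _).mpr h3
    push_cast at h4
    exact (sub_eq_zero.mp h4).symm
  have hvalcast : ∀ q : ZMod n, (((q.val : ℤ)) : ZMod n) = q := by
    intro q
    simp
  have hdivval : ∀ (j : ℤ) (q : ZMod n), (j : ZMod n) = q → x ^ (j - (q.val : ℤ)) ∈ N := by
    intro j q hj
    have h1 : ((j - (q.val : ℤ) : ℤ) : ZMod n) = 0 := by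
      push_cast
      simp [hj]
    obtain ⟨t, ht⟩ := (ZMod.intCast_zmod_eq_zero_iff_dvd _ _).mp h1
    rw [ht, zpow_mul]
    exact N.zpow_mem (by simpa using hxn) t
  have hP : ∀ g, x ^ (-((c g).val : ℤ)) * rightPart H g ∈ N := by
    intro g
    have h1 := hdivval (I g) (c g) rfl
    have h2 := N.mul_mem h1 (hI g)
    have h3 : x ^ (I g - ((c g).val : ℤ)) * (x ^ (-I g) * rightPart H g) =
        x ^ (-((c g).val : ℤ)) * rightPart H g := by
      rw [← mul_assoc, ← zpow_add]
      congr 2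
      ring
    rwa [h3] at h2
  have hrx : ∀ g, rightPart H (x⁻¹ * g) = x⁻¹ * rightPart H g := fun g =>
    rightPart_mul H (H.inv_mem hxH) g
  have hry : ∀ g, rightPart H (y⁻¹ * g) = y⁻¹ * rightPart H g := fun g =>
    rightPart_mul H (H.inv_mem hyH) g
  have hcx : ∀ g, c (x⁻¹ * g) = c g - 1 := by
    intro g
    have h1 : x ^ (-(((c g).val : ℤ) - 1)) * rightPart H (x⁻¹ * g) ∈ N := by
      rw [hrx]
      have h2 : x ^ (-(((c g).val : ℤ) - 1)) * (x⁻¹ * rightPart H g) =
          x ^ (-((c g).val : ℤ)) * rightPart H g := by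
        rw [← mul_assoc]
        congr 1
        rw [show (x⁻¹ : G) = x ^ (-1 : ℤ) by simp, ← zpow_add]
        congr 1
        ring
      rw [h2]
      exact hP g
    rw [hU _ _ h1]
    push_cast
    rw [ZMod.natCast_zmod_val]
  have hconj : ∀ (i : ℤ) (a : G), a ∈ N → x ^ (-i) * a * x ^ i ∈ N := by
    intro i a ha
    have := hx (-i) a ha
    rwa [neg_neg] at this
  have hyN' : y⁻¹ ∈ N := N.inv_mem hyN
  have hyfac : ∀ g, x ^ (-((c g).val : ℤ)) * (y⁻¹ * rightPart H g) =
      (x ^ (-((c g).val : ℤ)) * y⁻¹ * x ^ ((c g).val : ℤ)) *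
        (x ^ (-((c g).val : ℤ)) * rightPart H g) := by
    intro g
    simp only [zpow_neg]
    group
  have hcy : ∀ g, c (y⁻¹ * g) = c g := by
    intro g
    have h1 : x ^ (-((c g).val : ℤ)) * rightPart H (y⁻¹ * g) ∈ N := by
      rw [hry, hyfac]
      exact N.mul_mem (hconj _ _ hyN') (hP g)
    rw [hU _ _ h1]
    simp
  -- the level
  let f : G → ℤ := fun g => φ (x ^ (-((c g).val : ℤ)) * rightPart H g)
  let A : ZMod n → G := fun q => x ^ (-((q - 1).val : ℤ) - 1 + (q.val : ℤ))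
  have hAmem : ∀ q, A q ∈ N := by
    intro q
    have h1 : ((-((q - 1).val : ℤ) - 1 + (q.val : ℤ) : ℤ) : ZMod n) = 0 := by
      push_cast
      simp
    obtain ⟨t, ht⟩ := (ZMod.intCast_zmod_eq_zero_iff_dvd _ _).mp h1
    show x ^ (-((q - 1).val : ℤ) - 1 + (q.val : ℤ)) ∈ N
    rw [ht, zpow_mul]
    exact N.zpow_mem (by simpa using hxn) t
  let δ : ZMod n → ℤ := fun q => - φ (A q)
  let w : ZMod n → ℤ := fun q => φ (x ^ (-(q.val : ℤ)) * y * x ^ (q.val : ℤ))
  have hfx : ∀ g, f (x⁻¹ * g) = f g - δ (c g) := by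
    intro g
    show φ (x ^ (-((c (x⁻¹ * g)).val : ℤ)) * rightPart H (x⁻¹ * g)) =
      φ (x ^ (-((c g).val : ℤ)) * rightPart H g) - (- φ (A (c g)))
    rw [hcx, hrx]
    have h2 : x ^ (-((c g - 1).val : ℤ)) * (x⁻¹ * rightPart H g) =
        A (c g) * (x ^ (-((c g).val : ℤ)) * rightPart H g) := by
      show _ = x ^ (-((c g - 1).val : ℤ) - 1 + ((c g).val : ℤ)) *
        (x ^ (-((c g).val : ℤ)) * rightPart H g)
      have e1 : x ^ (-((c g - 1).val : ℤ) - 1 + ((c g).val : ℤ)) *
          (x ^ (-((c g).val : ℤ)) * rightPart H g) =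
          x ^ (-((c g - 1).val : ℤ) - 1) * rightPart H g := by
        rw [← mul_assoc, ← zpow_add]
        congr 2
        ring
      have e2 : x ^ (-((c g - 1).val : ℤ) - 1) = x ^ (-((c g - 1).val : ℤ)) * x⁻¹ := by
        rw [zpow_sub, zpow_one]
      rw [e1, e2, mul_assoc]
    rw [h2, hφ _ (hAmem _) _ (hP g)]
    ring
  have hfy : ∀ g, f (y⁻¹ * g) = f g - w (c g) := by
    intro g
    show φ (x ^ (-((c (y⁻¹ * g)).val : ℤ)) * rightPart H (y⁻¹ * g)) =
      φ (x ^ (-((c g).val : ℤ)) * rightPart H g) -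
        φ (x ^ (-((c g).val : ℤ)) * y * x ^ ((c g).val : ℤ))
    rw [hcy, hry, hyfac, hφ _ (hconj _ _ hyN') _ (hP g)]
    have h3 : x ^ (-((c g).val : ℤ)) * y⁻¹ * x ^ ((c g).val : ℤ) =
        (x ^ (-((c g).val : ℤ)) * y * x ^ ((c g).val : ℤ))⁻¹ := by
      simp only [zpow_neg]
      group
    rw [h3, hφinv _ (hconj _ _ hyN)]
    ring
  have hδsum : ∑ q, δ q = φ (x ^ n) := by
    rw [Finset.sum_eq_single (0 : ZMod n)]
    · show - φ (A 0) = _
      have h1 : A 0 = (x ^ n)⁻¹ := by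
        show x ^ (-(((0 : ZMod n) - 1).val : ℤ) - 1 + ((0 : ZMod n).val : ℤ)) = _
        have hv : ((0 : ZMod n) - 1).val = n - 1 := by
          have h2 : (0 : ZMod n) - 1 = ((n - 1 : ℕ) : ZMod n) := by
            rw [Nat.cast_sub hn]
            simp
          rw [h2, ZMod.val_natCast_of_lt (by omega)]
        rw [hv, ZMod.val_zero]
        have h4 : (-((n - 1 : ℕ) : ℤ) - 1 + ((0 : ℕ) : ℤ)) = - (n : ℤ) := by
          omega
        rw [h4, zpow_neg, zpow_natCast]
      rw [h1, hφinv _ (by simpa using hxn)]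
      ring
    · intro q _ hq
      show - φ (A q) = 0
      have hqv : q.val ≠ 0 := by
        intro h
        exact hq ((ZMod.val_eq_zero q).mp h)
      have hv : (q - 1).val = q.val - 1 := by
        have h2 : q - 1 = ((q.val - 1 : ℕ) : ZMod n) := by
          rw [Nat.cast_sub (by omega)]
          simp
        rw [h2, ZMod.val_natCast_of_lt (by have := ZMod.val_lt q; omega)]
      have h1 : A q = 1 := by
        show x ^ (-((q - 1).val : ℤ) - 1 + (q.val : ℤ)) = 1
        rw [hv]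
        have h4 : (-((q.val - 1 : ℕ) : ℤ) - 1 + (q.val : ℤ)) = 0 := by
          omega
        rw [h4, zpow_zero]
      rw [h1, hφ1]
      simp
    · intro h
      exact absurd (Finset.mem_univ _) h
  exact ⟨c, f, δ, w, hcx, hcy, hfx, hfy, fun q => rfl, hδsum⟩

/-- A function additive on `N` vanishes on `N` if it vanishes on the conjugates of `y`
and on the power of `x` in `N`. -/
theorem phi_zero (x y : G) (N : Subgroup G)
    (hx : ∀ (i : ℤ), ∀ s ∈ N, x ^ i * s * x ^ (-i) ∈ N)
    (hyN : y ∈ N) (n : ℕ) (hn : 0 < n) (hxn : x ^ n ∈ N)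
    (hdvd : ∀ k : ℤ, x ^ k ∈ N → (n : ℤ) ∣ k)
    (hNH : N ≤ Subgroup.closure {x, y})
    (φ : G → ℤ) (hφ : ∀ a ∈ N, ∀ b ∈ N, φ (a * b) = φ a + φ b)
    (hw : ∀ r : ℕ, r < n → φ (x ^ (-(r : ℤ)) * y * x ^ (r : ℤ)) = 0)
    (hxn0 : φ (x ^ n) = 0) :
    ∀ l ∈ N, φ l = 0 := by
  have hφ1 : φ 1 = 0 := by
    have := hφ 1 N.one_mem 1 N.one_mem
    simp only [mul_one] at this
    omega
  have hφinv : ∀ a ∈ N, φ a⁻¹ = - φ a := by
    intro a ha
    have := hφ a ha a⁻¹ (N.inv_mem ha)
    rw [mul_inv_cancel, hφ1] at this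
    omega
  have hconj : ∀ (i : ℤ) (a : G), a ∈ N → x ^ (-i) * a * x ^ i ∈ N := by
    intro i a ha
    have := hx (-i) a ha
    rwa [neg_neg] at this
  have hxnz : ∀ t : ℤ, x ^ ((n : ℤ) * t) ∈ N := fun t => by
    rw [zpow_mul]
    exact N.zpow_mem (by simpa using hxn) t
  -- all conjugates of `y` are killed
  have hallw : ∀ i : ℤ, φ (x ^ (-i) * y * x ^ i) = 0 := by
    intro i
    set r := i % (n : ℤ) with hr
    have hr0 : 0 ≤ r := Int.emod_nonneg _ (by omega)
    have hr1 : r < n := Int.emod_lt_of_pos _ (by omega)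
    obtain ⟨r', hr'⟩ : ∃ r' : ℕ, (r' : ℤ) = r := ⟨r.toNat, by omega⟩
    have hdec : i = (n : ℤ) * (i / (n : ℤ)) + r := (Int.mul_ediv_add_emod _ _).symm
    set t := i / (n : ℤ) with ht
    have h1 : x ^ (-i) * y * x ^ i =
        x ^ (-((n : ℤ) * t)) * (x ^ (-(r' : ℤ)) * y * x ^ (r' : ℤ)) * x ^ ((n : ℤ) * t) := by
      have h2 : x ^ i = x ^ (r' : ℤ) * x ^ ((n : ℤ) * t) := by
        rw [← zpow_add, hr']
        congr 1
        omega
      have h3 : x ^ (-i) = x ^ (-((n : ℤ) * t)) * x ^ (-(r' : ℤ)) := by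
        rw [← zpow_add, hr']
        congr 1
        omega
      rw [h2, h3]
      group
    have hz := hxnz t
    have hzi : x ^ (-((n : ℤ) * t)) ∈ N := by
      rw [zpow_neg]
      exact N.inv_mem hz
    have hmid := hconj (r' : ℤ) y hyN
    rw [h1, hφ _ (N.mul_mem hzi hmid) _ hz, hφ _ hzi _ hmid, hw r' (by omega), zpow_neg,
      hφinv _ hz]
    ring
  -- the subgroup generated by the conjugates and the power
  let T : Set G := Set.range (fun i : ℤ => x ^ (-i) * y * x ^ i) ∪ {x ^ n}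
  let S : Subgroup G := Subgroup.closure T
  have hSN : ∀ s ∈ S, s ∈ N ∧ φ s = 0 := by
    intro s hs
    induction hs using Subgroup.closure_induction with
    | mem a ha =>
      rcases ha with ⟨i, rfl⟩ | ha
      · exact ⟨hconj i y hyN, hallw i⟩
      · rw [Set.mem_singleton_iff] at ha
        subst ha
        exact ⟨hxn, hxn0⟩
    | one => exact ⟨N.one_mem, hφ1⟩
    | mul a b _ _ iha ihb =>
      refine ⟨N.mul_mem iha.1 ihb.1, ?_⟩
      rw [hφ _ iha.1 _ ihb.1, iha.2, ihb.2, add_zero]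
    | inv a _ iha =>
      refine ⟨N.inv_mem iha.1, ?_⟩
      rw [hφinv _ iha.1, iha.2, neg_zero]
  have hSconj : ∀ (i : ℤ), ∀ s ∈ S, x ^ i * s * x ^ (-i) ∈ S := by
    intro i s hs
    induction hs using Subgroup.closure_induction with
    | mem a ha =>
      rcases ha with ⟨j, rfl⟩ | ha
      · apply Subgroup.subset_closure
        left
        refine ⟨j - i, ?_⟩
        show x ^ (-(j - i)) * y * x ^ (j - i) = _
        have h1 : x ^ (-(j - i)) = x ^ i * x ^ (-j) := by
          rw [← zpow_add]; congr 1; ring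
        have h2 : x ^ (j - i) = x ^ j * x ^ (-i) := by
          rw [← zpow_add]; congr 1
        rw [h1, h2]
        group
      · rw [Set.mem_singleton_iff] at ha
        subst ha
        have h1 : x ^ i * x ^ n * x ^ (-i) = x ^ n := by
          rw [← zpow_natCast, ← zpow_add, ← zpow_add]
          congr 1
          ring_nf
        rw [h1]
        exact Subgroup.subset_closure (Or.inr rfl)
    | one => simp [S.one_mem]
    | mul a b _ _ iha ihb =>
      have := S.mul_mem iha ihb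
      have h1 : x ^ i * a * x ^ (-i) * (x ^ i * b * x ^ (-i)) = x ^ i * (a * b) * x ^ (-i) := by
        simp only [zpow_neg]
        group
      rwa [h1] at this
    | inv a _ iha =>
      have := S.inv_mem iha
      have h1 : (x ^ i * a * x ^ (-i))⁻¹ = x ^ i * a⁻¹ * x ^ (-i) := by
        simp only [zpow_neg]
        group
      rwa [h1] at this
  have hyS : y ∈ S := by
    apply Subgroup.subset_closure
    left
    exact ⟨0, by simp⟩
  intro l hl
  obtain ⟨k, hk⟩ := dec_mod x y S hSconj hyS l (hNH hl)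
  have hk1 := (hSN _ hk).1
  have hxk : x ^ (-k) ∈ N := by
    have := N.mul_mem hk1 (N.inv_mem hl)
    simpa using this
  obtain ⟨t, ht⟩ := hdvd _ hxk
  have hxkS : x ^ k ∈ S := by
    have h1 : k = (n : ℤ) * (-t) := by linarith
    rw [h1, zpow_mul]
    apply S.zpow_mem
    have : x ^ n ∈ S := Subgroup.subset_closure (Or.inr rfl)
    simpa using this
  have hlS : l ∈ S := by
    have := S.mul_mem hxkS hk
    simpa using this
  exact (hSN l hlS).2

end Levels

end Vale.Agent.Lib.P201
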