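import Mathlib
import Vale.Agent.Lib.P201.Levels

namespace Vale.Agent.Lib.P201

open MonoidAlgebra

section Three

variable {K G : Type*} [Field K] [Group G]

theorem coeff_three (x y : G) (a l m : K) (β : MonoidAlgebra K G) (g : G) :
    ((single 1 a + single x l + single y m) * β).coeff g =
      a * β.coeff g + l * β.coeff (x⁻¹ * g) + m * β.coeff (y⁻¹ * g) := by
  rw [add_mul, add_mul]
  simp [coeff_single_mul_apply]

/-- The main extremal statement, `y` in the normal subgroup. -/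
theorem three_term_core (x y : G) (l m : K) (hl : l ≠ 0) (hm : m ≠ 0) (hy : orderOf y = 0)
    (N : Subgroup G) (hx : ∀ (i : ℤ), ∀ s ∈ N, x ^ i * s * x ^ (-i) ∈ N) (hyN : y ∈ N)
    (k : ℕ) (hk : 0 < k) (hxk : x ^ k ∈ N) (hNH : N ≤ Subgroup.closure {x, y})
    (φ : G → ℤ) (hφ : ∀ a ∈ N, ∀ b ∈ N, φ (a * b) = φ a + φ b) (hne : ∃ a ∈ N, φ a ≠ 0)
    (β : MonoidAlgebra K G) (h : (single 1 1 + single x l + single y m) * β = 0) : β = 0 := by
  classical
  by_contra hβ
  -- the minimal power of `x` in `N`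
  have hex : ∃ j : ℕ, 0 < j ∧ x ^ j ∈ N := ⟨k, hk, hxk⟩
  let n := Nat.find hex
  have hn : 0 < n := (Nat.find_spec hex).1
  have hxn : x ^ n ∈ N := (Nat.find_spec hex).2
  haveI : NeZero n := ⟨hn.ne'⟩
  have hdvd : ∀ j : ℤ, x ^ j ∈ N → (n : ℤ) ∣ j := by
    intro j hj
    have hr0 : 0 ≤ j % (n : ℤ) := Int.emod_nonneg _ (by omega)
    have hr1 : j % (n : ℤ) < n := Int.emod_lt_of_pos _ (by omega)
    obtain ⟨r, hr⟩ : ∃ r : ℕ, (r : ℤ) = j % (n : ℤ) := ⟨(j % (n : ℤ)).toNat, by omega⟩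
    have hdec : j = (n : ℤ) * (j / (n : ℤ)) + j % (n : ℤ) := (Int.mul_ediv_add_emod _ _).symm
    have hxr : x ^ r ∈ N := by
      have h1 : x ^ j = x ^ ((n : ℤ) * (j / (n : ℤ))) * x ^ (r : ℤ) := by
        rw [← zpow_add, hr, ← hdec]
      have h2 : x ^ ((n : ℤ) * (j / (n : ℤ))) ∈ N := by
        rw [zpow_mul]
        exact N.zpow_mem (by simpa using hxn) _
      rw [h1] at hj
      have h3 := N.mul_mem (N.inv_mem h2) hj
      simpa using h3
    have hrzero : r = 0 := by
      by_contra hr0'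
      have hrpos : 0 < r := Nat.pos_of_ne_zero hr0'
      have hmin := Nat.find_min' hex ⟨hrpos, hxr⟩
      have : (n : ℤ) ≤ r := by exact_mod_cast hmin
      omega
    have : j % (n : ℤ) = 0 := by rw [← hr, hrzero]; rfl
    exact Int.dvd_of_emod_eq_zero this
  obtain ⟨c, f, δ, w, hcx, hcy, hfx, hfy, hw, hδ⟩ := exists_levels x y N hx hyN n hxn hdvd φ hφ
  let π : Equiv.Perm (ZMod n) := Equiv.subRight 1
  have hπ : ∀ q : ZMod n, π q = q - 1 := fun q => rfl
  have hpow : ∀ (j : ℕ) (q : ZMod n), (π ^ j) q = q - j := by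
    intro j q
    induction j with
    | zero => simp
    | succ j ih =>
      rw [pow_succ', Equiv.Perm.mul_apply, ih, hπ]
      push_cast
      ring
  have htrans : ∀ q q' : ZMod n, ∃ j : ℕ, (π ^ j) q = q' := by
    intro q q'
    refine ⟨(q - q').val, ?_⟩
    rw [hpow]
    simp
  have hrec : ∀ g, β.coeff g + l * β.coeff (x⁻¹ * g) + m * β.coeff (y⁻¹ * g) = 0 := by
    intro g
    have h1 := congrArg (fun z => z.coeff g) h
    simp only [coeff_three] at h1
    simpa using h1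
  have hb : β.coeff ≠ 0 := fun hz => hβ (MonoidAlgebra.coeff_injective (by simpa using hz))
  obtain ⟨hw0, hδ0⟩ := weights_zero x y l m hl hm hy π htrans c f δ w
    (fun g => by rw [hcx, hπ]) hcy hfx hfy β.coeff hb hrec
  have hall := phi_zero x y N hx hyN n hn hxn hdvd hNH φ hφ
    (fun r hr => by
      have h1 := hw0 (r : ZMod n)
      rw [hw, ZMod.val_natCast_of_lt hr] at h1
      exact h1)
    (by rw [← hδ, hδ0])
  obtain ⟨a, ha, hφa⟩ := hne
  exact hφa (hall a ha)

end Three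

end Vale.Agent.Lib.P201
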