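import Mathlib
import Vale.Agent.Lib.P201.Three
import Vale.Agent.Lib.P201.Anti

namespace Vale.Agent.Lib.P201

open MonoidAlgebra

section Final

variable {K G : Type*} [Field K] [Group G]

theorem closure_inv_mul (x y : G) :
    Subgroup.closure {x⁻¹, x⁻¹ * y} = Subgroup.closure {x, y} := by
  apply le_antisymm
  · rw [Subgroup.closure_le]
    rintro g (rfl | hg)
    · exact Subgroup.inv_mem _ (Subgroup.subset_closure (by simp))
    · rw [Set.mem_singleton_iff] at hg
      subst hg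
      exact Subgroup.mul_mem _ (Subgroup.inv_mem _ (Subgroup.subset_closure (by simp)))
        (Subgroup.subset_closure (by simp))
  · rw [Subgroup.closure_le]
    rintro g (rfl | hg)
    · have : g⁻¹⁻¹ ∈ Subgroup.closure {g⁻¹, g⁻¹ * y} :=
        Subgroup.inv_mem _ (Subgroup.subset_closure (by simp))
      simpa using this
    · rw [Set.mem_singleton_iff] at hg
      subst hg
      have h1 : x⁻¹⁻¹ ∈ Subgroup.closure {x⁻¹, x⁻¹ * g} :=
        Subgroup.inv_mem _ (Subgroup.subset_closure (by simp))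
      have h2 : x⁻¹ * g ∈ Subgroup.closure {x⁻¹, x⁻¹ * g} :=
        Subgroup.subset_closure (by simp)
      have := Subgroup.mul_mem _ h1 h2
      simpa using this

theorem closure_inv_inv (x y : G) :
    Subgroup.closure {x⁻¹, y⁻¹} = Subgroup.closure {x, y} := by
  apply le_antisymm
  · rw [Subgroup.closure_le]
    rintro g (rfl | hg)
    · exact Subgroup.inv_mem _ (Subgroup.subset_closure (by simp))
    · rw [Set.mem_singleton_iff] at hg
      subst hg
      exact Subgroup.inv_mem _ (Subgroup.subset_closure (by simp))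
  · rw [Subgroup.closure_le]
    rintro g (rfl | hg)
    · have : g⁻¹⁻¹ ∈ Subgroup.closure {g⁻¹, y⁻¹} :=
        Subgroup.inv_mem _ (Subgroup.subset_closure (by simp))
      simpa using this
    · rw [Set.mem_singleton_iff] at hg
      subst hg
      have : g⁻¹⁻¹ ∈ Subgroup.closure {x⁻¹, g⁻¹} :=
        Subgroup.inv_mem _ (Subgroup.subset_closure (by simp))
      simpa using this

/-- Left version: a three term element with a difference in a normal subgroup of finite index
carrying a nonzero homomorphism to the integers is not a left zero divisor. -/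
theorem left_main (x y : G) (a b c : K) (ha : a ≠ 0) (hb : b ≠ 0) (hc : c ≠ 0) (N : Subgroup G)
    (hNH : N ≤ Subgroup.closure {x, y})
    (hnorm : ∀ g ∈ Subgroup.closure {x, y}, ∀ l ∈ N, g * l * g⁻¹ ∈ N)
    (hpow : ∀ g ∈ Subgroup.closure {x, y}, ∃ k : ℕ, 0 < k ∧ g ^ k ∈ N)
    (φ : G → ℤ) (hφ : ∀ u ∈ N, ∀ v ∈ N, φ (u * v) = φ u + φ v) (hne : ∃ u ∈ N, φ u ≠ 0)
    (he : (x ∈ N ∧ orderOf x = 0) ∨ (y ∈ N ∧ orderOf y = 0) ∨
      (x⁻¹ * y ∈ N ∧ orderOf (x⁻¹ * y) = 0))
    (β : MonoidAlgebra K G) (h : (single 1 a + single x b + single y c) * β = 0) : β = 0 := by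
  have hxH : x ∈ Subgroup.closure {x, y} := Subgroup.subset_closure (by simp)
  have hyH : y ∈ Subgroup.closure {x, y} := Subgroup.subset_closure (by simp)
  have hconj : ∀ t ∈ Subgroup.closure {x, y}, ∀ (i : ℤ), ∀ s ∈ N, t ^ i * s * t ^ (-i) ∈ N := by
    intro t ht i s hs
    rw [zpow_neg]
    exact hnorm _ (Subgroup.zpow_mem _ ht i) s hs
  rcases he with ⟨hxN, hxo⟩ | ⟨hyN, hyo⟩ | ⟨heN, heo⟩
  · -- `x` in the normal subgroup
    have h1 : (single 1 1 + single y (a⁻¹ * c) + single x (a⁻¹ * b)) * β = 0 := by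
      have h2 : single 1 1 + single y (a⁻¹ * c) + single x (a⁻¹ * b) =
          single (1 : G) a⁻¹ * (single 1 a + single x b + single y c) := by
        rw [mul_add, mul_add, single_mul_single, single_mul_single, single_mul_single]
        simp only [one_mul, inv_mul_cancel₀ ha]
        abel
      rw [h2, mul_assoc, h, mul_zero]
    obtain ⟨k, hk, hkN⟩ := hpow y hyH
    refine three_term_core y x (a⁻¹ * c) (a⁻¹ * b) (mul_ne_zero (inv_ne_zero ha) hc)
      (mul_ne_zero (inv_ne_zero ha) hb) hxo N (hconj y hyH) hxN k hk hkN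
      (by rwa [Set.pair_comm]) φ hφ hne β h1
  · have h1 : (single 1 1 + single x (a⁻¹ * b) + single y (a⁻¹ * c)) * β = 0 := by
      have h2 : single 1 1 + single x (a⁻¹ * b) + single y (a⁻¹ * c) =
          single (1 : G) a⁻¹ * (single 1 a + single x b + single y c) := by
        rw [mul_add, mul_add, single_mul_single, single_mul_single, single_mul_single]
        simp only [one_mul, inv_mul_cancel₀ ha]
      rw [h2, mul_assoc, h, mul_zero]
    obtain ⟨k, hk, hkN⟩ := hpow x hxH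
    exact three_term_core x y (a⁻¹ * b) (a⁻¹ * c) (mul_ne_zero (inv_ne_zero ha) hb)
      (mul_ne_zero (inv_ne_zero ha) hc) hyo N (hconj x hxH) hyN k hk hkN hNH φ hφ hne β h1
  · have h1 : (single 1 1 + single x⁻¹ (b⁻¹ * a) + single (x⁻¹ * y) (b⁻¹ * c)) * β = 0 := by
      have h2 : single 1 1 + single x⁻¹ (b⁻¹ * a) + single (x⁻¹ * y) (b⁻¹ * c) =
          single x⁻¹ b⁻¹ * (single 1 a + single x b + single y c) := by
        rw [mul_add, mul_add, single_mul_single, single_mul_single, single_mul_single]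
        simp only [mul_one, inv_mul_cancel, inv_mul_cancel₀ hb]
        abel
      rw [h2, mul_assoc, h, mul_zero]
    have hxi : x⁻¹ ∈ Subgroup.closure {x, y} := Subgroup.inv_mem _ hxH
    obtain ⟨k, hk, hkN⟩ := hpow x⁻¹ hxi
    refine three_term_core x⁻¹ (x⁻¹ * y) (b⁻¹ * a) (b⁻¹ * c) (mul_ne_zero (inv_ne_zero hb) ha)
      (mul_ne_zero (inv_ne_zero hb) hc) heo N (hconj x⁻¹ hxi) heN k hk hkN
      (by rwa [closure_inv_mul]) φ hφ hne β h1

/-- Both sided version. -/
theorem both_main (x y : G) (a b c : K) (ha : a ≠ 0) (hb : b ≠ 0) (hc : c ≠ 0) (N : Subgroup G)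
    (hNH : N ≤ Subgroup.closure {x, y})
    (hnorm : ∀ g ∈ Subgroup.closure {x, y}, ∀ l ∈ N, g * l * g⁻¹ ∈ N)
    (hpow : ∀ g ∈ Subgroup.closure {x, y}, ∃ k : ℕ, 0 < k ∧ g ^ k ∈ N)
    (φ : G → ℤ) (hφ : ∀ u ∈ N, ∀ v ∈ N, φ (u * v) = φ u + φ v) (hne : ∃ u ∈ N, φ u ≠ 0)
    (he : (x ∈ N ∧ orderOf x = 0) ∨ (y ∈ N ∧ orderOf y = 0) ∨
      (x⁻¹ * y ∈ N ∧ orderOf (x⁻¹ * y) = 0))
    (β : MonoidAlgebra K G)
    (h : (single 1 a + single x b + single y c) * β = 0 ∨
      β * (single 1 a + single x b + single y c) = 0) : β = 0 := by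
  rcases h with h | h
  · exact left_main x y a b c ha hb hc N hNH hnorm hpow φ hφ hne he β h
  · have h1 : (single 1 a + single x⁻¹ b + single y⁻¹ c) * anti β = 0 := by
      have h2 := congrArg anti h
      rw [anti_mul, map_add, map_add, anti_single, anti_single, anti_single, map_zero] at h2
      simpa using h2
    have hc1 : Subgroup.closure {x⁻¹, y⁻¹} = Subgroup.closure {x, y} := closure_inv_inv x y
    have he' : (x⁻¹ ∈ N ∧ orderOf x⁻¹ = 0) ∨ (y⁻¹ ∈ N ∧ orderOf y⁻¹ = 0) ∨
        (x⁻¹⁻¹ * y⁻¹ ∈ N ∧ orderOf (x⁻¹⁻¹ * y⁻¹) = 0) := by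
      rcases he with ⟨h3, h4⟩ | ⟨h3, h4⟩ | ⟨h3, h4⟩
      · exact Or.inl ⟨N.inv_mem h3, by rwa [orderOf_inv]⟩
      · exact Or.inr (Or.inl ⟨N.inv_mem h3, by rwa [orderOf_inv]⟩)
      · right; right
        have hxH : x ∈ Subgroup.closure {x, y} := Subgroup.subset_closure (by simp)
        have h5 := hnorm x hxH _ h3
        have h6 : x * (x⁻¹ * y) * x⁻¹ = y * x⁻¹ := by group
        rw [h6] at h5
        have h7 : x⁻¹⁻¹ * y⁻¹ = (y * x⁻¹)⁻¹ := by group
        rw [h7]
        refine ⟨N.inv_mem h5, ?_⟩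
        rw [orderOf_inv]
        have h8 : y * x⁻¹ = x * (x⁻¹ * y) * x⁻¹ := by group
        rw [h8]
        have h9 : orderOf (x * (x⁻¹ * y) * x⁻¹) = orderOf (x⁻¹ * y) := by
          have := orderOf_injective (MulAut.conj x).toMonoidHom (MulAut.conj x).injective (x⁻¹ * y)
          simpa using this
        rw [h9, h4]
    have h2 := left_main x⁻¹ y⁻¹ a b c ha hb hc N (by rwa [hc1])
      (by rwa [hc1]) (by rwa [hc1]) φ hφ hne he' (anti β) h1
    exact anti_eq_zero h2

/-- Total function attached to a homomorphism defined on a subgroup. -/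
noncomputable def totalize (N : Subgroup G) (φ : N →* Multiplicative ℤ) (g : G) : ℤ :=
  open Classical in if h : g ∈ N then Multiplicative.toAdd (φ ⟨g, h⟩) else 0

theorem totalize_mul (N : Subgroup G) (φ : N →* Multiplicative ℤ) :
    ∀ u ∈ N, ∀ v ∈ N, totalize N φ (u * v) = totalize N φ u + totalize N φ v := by
  intro u hu v hv
  unfold totalize
  rw [dif_pos (N.mul_mem hu hv), dif_pos hu, dif_pos hv]
  have : (⟨u * v, N.mul_mem hu hv⟩ : N) = ⟨u, hu⟩ * ⟨v, hv⟩ := rfl
  rw [this, map_mul, toAdd_mul]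

theorem totalize_ne (N : Subgroup G) (φ : N →* Multiplicative ℤ) (hφ : φ ≠ 1) :
    ∃ u ∈ N, totalize N φ u ≠ 0 := by
  by_contra hall
  push Not at hall
  apply hφ
  ext ⟨u, hu⟩
  have := hall u hu
  unfold totalize at this
  rw [dif_pos hu] at this
  simpa using this

/-- Statement with the normal subgroup of finite index expressed through `subgroupOf`. -/
theorem normal_indicable (x y : G) (a b c : K) (ha : a ≠ 0) (hb : b ≠ 0) (hc : c ≠ 0)
    (N : Subgroup G) (hNH : N ≤ Subgroup.closure {x, y})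
    (hnorm : (N.subgroupOf (Subgroup.closure {x, y})).Normal)
    (hfin : (N.subgroupOf (Subgroup.closure {x, y})).FiniteIndex)
    (φ : N →* Multiplicative ℤ) (hφ : φ ≠ 1)
    (he : (x ∈ N ∧ orderOf x = 0) ∨ (y ∈ N ∧ orderOf y = 0) ∨
      (x⁻¹ * y ∈ N ∧ orderOf (x⁻¹ * y) = 0))
    (β : MonoidAlgebra K G)
    (h : (single 1 a + single x b + single y c) * β = 0 ∨
      β * (single 1 a + single x b + single y c) = 0) : β = 0 := by
  refine both_main x y a b c ha hb hc N hNH ?_ ?_ (totalize N φ) (totalize_mul N φ)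
    (totalize_ne N φ hφ) he β h
  · intro g hg l hl
    have hl' : (⟨l, hNH hl⟩ : Subgroup.closure {x, y}) ∈ N.subgroupOf (Subgroup.closure {x, y}) :=
      hl
    have := hnorm.conj_mem _ hl' ⟨g, hg⟩
    exact this
  · intro g hg
    obtain ⟨k, hk, _, hkN⟩ := Subgroup.exists_pow_mem_of_index_ne_zero hfin.index_ne_zero
      (⟨g, hg⟩ : Subgroup.closure {x, y})
    exact ⟨k, hk, hkN⟩

end Final

end Vale.Agent.Lib.P201
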