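import Mathlib
import Vale.Agent.Lib.P201.Final

namespace Vale.Agent.Lib.P201

open MonoidAlgebra

section Bin

variable {K G : Type*} [Field K] [Group G]

/-- A binomial with an element of infinite order has no right inverse. -/
theorem no_right_inverse (z : G) (hz : orderOf z = 0) (m : K) (hm : m ≠ 0)
    (u : MonoidAlgebra K G) (h : (single 1 1 + single z m) * u = 1) : False := by
  classical
  have hinj : Function.Injective fun j : ℕ => z ^ j :=
    injective_pow_iff_not_isOfFinOrder.mpr (orderOf_eq_zero_iff.mp hz)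
  have hzi : orderOf z⁻¹ = 0 := by rwa [orderOf_inv]
  have hinj' : Function.Injective fun j : ℕ => (z⁻¹) ^ j :=
    injective_pow_iff_not_isOfFinOrder.mpr (orderOf_eq_zero_iff.mp hzi)
  have hrec : ∀ t, u.coeff t + m * u.coeff (z⁻¹ * t) = if t = 1 then 1 else 0 := by
    intro t
    have h1 := congrArg (fun w => w.coeff t) h
    simp only [add_mul, coeff_add, Finsupp.add_apply, coeff_single_mul_apply, inv_one, one_mul,
      one_def, coeff_single] at h1
    rw [h1, Finsupp.single_apply]
    by_cases ht : t = 1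
    · simp [ht]
    · have : ¬ (1 = t) := fun h' => ht h'.symm
      simp [ht, this]
  have h1 : u.coeff 1 = 0 := by
    by_contra hne
    have hall : ∀ j : ℕ, u.coeff (z ^ j) ≠ 0 := by
      intro j
      induction j with
      | zero => simpa using hne
      | succ j ih =>
        intro hzero
        have hne1 : z ^ (j + 1) ≠ 1 := by
          intro he
          have := hinj (a₁ := j + 1) (a₂ := 0) (by simpa using he)
          omega
        have h2 := hrec (z ^ (j + 1))
        rw [if_neg hne1, hzero, zero_add] at h2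
        have h3 : z⁻¹ * z ^ (j + 1) = z ^ j := by
          rw [pow_succ', inv_mul_cancel_left]
        rw [h3] at h2
        exact ih ((mul_eq_zero.mp h2).resolve_left hm)
    have hinf : (↑u.coeff.support : Set G).Infinite :=
      Set.infinite_of_injective_forall_mem hinj (fun j => by simpa using hall j)
    exact hinf u.coeff.support.finite_toSet
  have h2 : u.coeff z⁻¹ ≠ 0 := by
    have h3 := hrec 1
    rw [if_pos rfl, h1, zero_add, mul_one] at h3
    intro hz0
    rw [hz0, mul_zero] at h3
    exact zero_ne_one h3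
  have hall : ∀ j : ℕ, u.coeff ((z⁻¹) ^ (j + 1)) ≠ 0 := by
    intro j
    induction j with
    | zero => simpa using h2
    | succ j ih =>
      intro hzero
      have hne1 : (z⁻¹) ^ (j + 1) ≠ 1 := by
        intro he
        have := hinj' (a₁ := j + 1) (a₂ := 0) (by simpa using he)
        omega
      have h3 := hrec ((z⁻¹) ^ (j + 1))
      rw [if_neg hne1] at h3
      have h4 : z⁻¹ * (z⁻¹) ^ (j + 1) = (z⁻¹) ^ (j + 1 + 1) := by
        rw [pow_succ' _ (j + 1)]
      rw [h4, hzero, mul_zero, add_zero] at h3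
      exact ih h3
  have hinf : (↑u.coeff.support : Set G).Infinite :=
    Set.infinite_of_injective_forall_mem (f := fun j : ℕ => (z⁻¹) ^ (j + 1))
      (fun a b hab => by
        have := hinj' (a₁ := a + 1) (a₂ := b + 1) hab
        omega)
      (fun j => by simpa using hall j)
  exact hinf u.coeff.support.finite_toSet

/-- A binomial with an element of infinite order is not a left zero divisor. -/
theorem binomial_left (z : G) (hz : orderOf z = 0) (a b : K) (ha : a ≠ 0) (hb : b ≠ 0)
    (β : MonoidAlgebra K G) (h : (single 1 a + single z b) * β = 0) : β = 0 := by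
  classical
  by_contra hβ
  obtain ⟨g₀, hg₀⟩ : ∃ g, β.coeff g ≠ 0 := by
    by_contra hall
    push Not at hall
    exact hβ (MonoidAlgebra.coeff_injective (Finsupp.ext (by simpa using hall)))
  have hzi : orderOf z⁻¹ = 0 := by rwa [orderOf_inv]
  have hinj' : Function.Injective fun j : ℕ => (z⁻¹) ^ j :=
    injective_pow_iff_not_isOfFinOrder.mpr (orderOf_eq_zero_iff.mp hzi)
  have hrec : ∀ t, a * β.coeff t + b * β.coeff (z⁻¹ * t) = 0 := by
    intro t
    have h1 := congrArg (fun w => w.coeff t) h
    simpa [add_mul, coeff_single_mul_apply] using h1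
  have hall : ∀ j : ℕ, β.coeff ((z⁻¹) ^ j * g₀) ≠ 0 := by
    intro j
    induction j with
    | zero => simpa using hg₀
    | succ j ih =>
      intro hzero
      have h3 := hrec ((z⁻¹) ^ j * g₀)
      have h4 : z⁻¹ * ((z⁻¹) ^ j * g₀) = (z⁻¹) ^ (j + 1) * g₀ := by
        rw [pow_succ', mul_assoc]
      rw [h4, hzero, mul_zero, add_zero] at h3
      exact ih ((mul_eq_zero.mp h3).resolve_left ha)
  have hinf : (↑β.coeff.support : Set G).Infinite :=
    Set.infinite_of_injective_forall_mem (f := fun j : ℕ => (z⁻¹) ^ j * g₀)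
      (fun a b hab => hinj' (mul_right_cancel hab))
      (fun j => by simpa using hall j)
  exact hinf β.coeff.support.finite_toSet

end Bin

section Dom

variable {K G : Type*} [Field K] [Group G]

/-- The part of an element on the translates by `x ^ i` of `N g₀`. -/
noncomputable def slice (N : Subgroup G) (x g₀ : G) (β : MonoidAlgebra K G) (i : ℕ) :
    MonoidAlgebra K N :=
  ofCoeff (β.coeff.comapDomain (fun t : N => x ^ i * (t : G) * g₀)
    (fun a _ b _ hab => by
      have h1 : (a : G) = b := by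
        have h2 : x ^ i * (a : G) * g₀ = x ^ i * (b : G) * g₀ := hab
        exact mul_left_cancel (mul_right_cancel h2)
      exact Subtype.ext h1))

theorem slice_coeff (N : Subgroup G) (x g₀ : G) (β : MonoidAlgebra K G) (i : ℕ) (t : N) :
    (slice N x g₀ β i).coeff t = β.coeff (x ^ i * (t : G) * g₀) := rfl

/-- The domain version: `y` lies in a subgroup normalised by `x`, containing a power of `x`,
whose group algebra has no zero divisors. -/
theorem domain_core (x y : G) (l m : K) (hl : l ≠ 0) (hm : m ≠ 0) (hy : orderOf y = 0)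
    (N : Subgroup G) (hx : ∀ (i : ℤ), ∀ s ∈ N, x ^ i * s * x ^ (-i) ∈ N) (hyN : y ∈ N)
    (k : ℕ) (hk : 0 < k) (hxk : x ^ k ∈ N) [NoZeroDivisors (MonoidAlgebra K N)]
    (β : MonoidAlgebra K G) (h : (single 1 1 + single x l + single y m) * β = 0) : β = 0 := by
  classical
  by_contra hβ
  obtain ⟨g₀, hg₀⟩ : ∃ g, β.coeff g ≠ 0 := by
    by_contra hall
    push Not at hall
    exact hβ (MonoidAlgebra.coeff_injective (Finsupp.ext (by simpa using hall)))
  have hrec : ∀ g, β.coeff g + l * β.coeff (x⁻¹ * g) + m * β.coeff (y⁻¹ * g) = 0 := by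
    intro g
    have h1 := congrArg (fun z => z.coeff g) h
    simp only [coeff_three] at h1
    simpa using h1
  let v : ℕ → MonoidAlgebra K N := slice N x g₀ β
  -- the conjugates of `y`
  have hyc : ∀ i : ℕ, x ^ (-(i : ℤ)) * y * x ^ (i : ℤ) ∈ N := by
    intro i
    have := hx (-(i : ℤ)) y hyN
    rwa [neg_neg] at this
  let Y : ℕ → N := fun i => ⟨x ^ (-(i : ℤ)) * y * x ^ (i : ℤ), hyc i⟩
  let w : ℕ → MonoidAlgebra K N := fun i => single 1 1 + single (Y i) m
  have hR : ∀ i : ℕ, w (i + 1) * v (i + 1) = (-l) • v i := by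
    intro i
    apply MonoidAlgebra.coeff_injective
    ext t
    have hval : x ^ (i + 1) * (((Y (i + 1))⁻¹ * t : N) : G) * g₀ =
        y⁻¹ * (x ^ (i + 1) * (t : G) * g₀) := by
      show x ^ (i + 1) * ((x ^ (-((i + 1 : ℕ) : ℤ)) * y * x ^ ((i + 1 : ℕ) : ℤ))⁻¹ * (t : G)) * g₀ = _
      simp only [zpow_neg, zpow_natCast]
      group
    have hval2 : x ^ i * (t : G) * g₀ = x⁻¹ * (x ^ (i + 1) * (t : G) * g₀) := by
      rw [pow_succ']
      group
    have h1 := hrec (x ^ (i + 1) * (t : G) * g₀)
    rw [← hval, ← hval2] at h1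
    show (w (i + 1) * v (i + 1)).coeff t = ((-l) • v i).coeff t
    simp only [w, add_mul, coeff_add, Finsupp.add_apply, coeff_single_mul_apply, inv_one, one_mul,
      coeff_smul_apply, v, slice_coeff, smul_eq_mul, neg_mul]
    linear_combination h1
  -- the product of the binomials
  let P : ℕ → MonoidAlgebra K N := fun j => (List.range j).foldl (fun acc i => acc * w (i + 1)) 1
  have hPsucc : ∀ j, P (j + 1) = P j * w (j + 1) := by
    intro j
    show (List.range (j + 1)).foldl _ _ = _
    rw [List.range_succ, List.foldl_append]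
    rfl
  have hP0 : P 0 = 1 := rfl
  have hchain : ∀ j : ℕ, (-l) ^ j • v 0 = P j * v j := by
    intro j
    induction j with
    | zero => simp [hP0]
    | succ j ih =>
      rw [hPsucc, mul_assoc, hR, mul_smul_comm, ← ih, smul_smul]
      ring_nf
  let X : N := ⟨x ^ k, hxk⟩
  have hvk : v k = single X⁻¹ 1 * v 0 := by
    apply MonoidAlgebra.coeff_injective
    ext t
    show β.coeff (x ^ k * (t : G) * g₀) = (single X⁻¹ 1 * v 0).coeff t
    rw [coeff_single_mul_apply, one_mul, inv_inv]
    show _ = β.coeff (x ^ 0 * ((X * t : N) : G) * g₀)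
    simp [X]
  have hv0 : v 0 ≠ 0 := by
    intro h0
    have h1 := congrArg (fun z => z.coeff (1 : N)) h0
    have h2 : (v 0).coeff (1 : N) = β.coeff g₀ := by
      show β.coeff (x ^ 0 * ((1 : N) : G) * g₀) = _
      simp
    rw [h2] at h1
    exact hg₀ (by simpa using h1)
  have hmain := hchain k
  rw [hvk, ← mul_assoc] at hmain
  -- the left factor is a unit
  have hfac : ((-l) ^ k • (1 : MonoidAlgebra K N) - P k * single X⁻¹ 1) * v 0 = 0 := by
    rw [sub_mul, smul_mul_assoc, one_mul, hmain, sub_self]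
  have hunit : (-l) ^ k • (1 : MonoidAlgebra K N) = P k * single X⁻¹ 1 := by
    rcases mul_eq_zero.mp hfac with h1 | h1
    · exact sub_eq_zero.mp h1
    · exact absurd h1 hv0
  -- `P k` starts with `w 1`
  have hstart : ∀ j : ℕ, ∃ Q, P (j + 1) = w 1 * Q := by
    intro j
    induction j with
    | zero => exact ⟨1, by rw [hPsucc, hP0]; simp⟩
    | succ j ih =>
      obtain ⟨Q, hQ⟩ := ih
      exact ⟨Q * w (j + 1 + 1), by rw [hPsucc, hQ, mul_assoc]⟩
  obtain ⟨k', rfl⟩ : ∃ k', k = k' + 1 := ⟨k - 1, by omega⟩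
  obtain ⟨Q, hQ⟩ := hstart k'
  have hlk : ((-l) ^ (k' + 1)) ≠ 0 := pow_ne_zero _ (neg_ne_zero.mpr hl)
  have hinv : w 1 * (((-l) ^ (k' + 1))⁻¹ • (Q * single X⁻¹ 1)) = 1 := by
    rw [mul_smul_comm, ← mul_assoc, ← hQ, ← hunit, smul_smul, inv_mul_cancel₀ hlk, one_smul]
  have hordY : orderOf (Y 1) = 0 := by
    have h1 : orderOf ((Y 1 : N) : G) = orderOf (Y 1) := Subgroup.orderOf_coe _
    rw [← h1]
    have h2 : ((Y 1 : N) : G) = (MulAut.conj (x ^ (-((1 : ℕ) : ℤ)))) y := by
      show x ^ (-((1 : ℕ) : ℤ)) * y * x ^ ((1 : ℕ) : ℤ) = x ^ (-((1 : ℕ) : ℤ)) * y * (x ^ (-((1 : ℕ) : ℤ)))⁻¹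
      simp
    rw [h2]
    have := orderOf_injective (MulAut.conj (x ^ (-((1 : ℕ) : ℤ)))).toMonoidHom
      (MulAut.conj (x ^ (-((1 : ℕ) : ℤ)))).injective y
    rw [hy] at this
    simpa using this
  exact no_right_inverse (Y 1) hordY m hm _ hinv

end Dom

end Vale.Agent.Lib.P201
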