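import Mathlib

namespace Vale.Agent.Lib.P201

open MonoidAlgebra

universe u v

section

variable {G : Type u} [Group G]

/-- Core of the specialisation: lifts and reductions. -/
theorem spec_core {A K L : Type*} [CommRing A] [Field K] [CommRing L] [Nontrivial L]
    (ι : A →+* K) (hι : Function.Injective ι) (π : A →+* L)
    [NoZeroDivisors (MonoidAlgebra L G)]
    (α β : MonoidAlgebra K G) (hαβ : α * β = 0)
    (g₁ g₂ : G) (u v : A)
    (hc : α.coeff g₁ ≠ 0) (hd : β.coeff g₂ ≠ 0)
    (hu : ι u = (α.coeff g₁)⁻¹) (hv : ι v = (β.coeff g₂)⁻¹)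
    (hα : ∀ h, α.coeff h ∈ Set.range ι) (hβ : ∀ h, β.coeff h ∈ Set.range ι) :
    False := by
  classical
  let Φ : MonoidAlgebra A G →+* MonoidAlgebra K G := mapRingHom G ι
  have hΦ : Function.Injective Φ := by
    intro x y hxy
    ext h
    apply hι
    have := congrArg (fun z => z.coeff h) hxy
    simpa [Φ, coeff_mapRingHom] using this
  have hrange : ∀ z : MonoidAlgebra K G, (∀ h, z.coeff h ∈ Set.range ι) → ∃ y, Φ y = z := by
    intro z hz
    have h1 : z ∈ Set.range (map (M := G) (ι : A →+ K)) := by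
      rw [range_map]
      exact hz
    obtain ⟨y, hy⟩ := h1
    exact ⟨y, hy⟩
  obtain ⟨αA, hαA⟩ := hrange α hα
  obtain ⟨βA, hβA⟩ := hrange β hβ
  have hmul : αA * βA = 0 := by
    apply hΦ
    rw [map_mul, map_zero, hαA, hβA, hαβ]
  let Ψ : MonoidAlgebra A G →+* MonoidAlgebra L G := mapRingHom G π
  have hprod : Ψ αA * Ψ βA = 0 := by rw [← map_mul, hmul, map_zero]
  have hunit1 : αA.coeff g₁ * u = 1 := by
    apply hι
    have h1 : ι (αA.coeff g₁) = α.coeff g₁ := by
      rw [← hαA]
      simp [Φ, coeff_mapRingHom]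
    rw [map_mul, h1, hu, mul_inv_cancel₀ hc, map_one]
  have hunit2 : βA.coeff g₂ * v = 1 := by
    apply hι
    have h1 : ι (βA.coeff g₂) = β.coeff g₂ := by
      rw [← hβA]
      simp [Φ, coeff_mapRingHom]
    rw [map_mul, h1, hv, mul_inv_cancel₀ hd, map_one]
  rcases mul_eq_zero.mp hprod with h0 | h0
  · have h1 : π (αA.coeff g₁) = 0 := by
      have := congrArg (fun z => z.coeff g₁) h0
      simpa [Ψ, coeff_mapRingHom] using this
    have h2 : π (αA.coeff g₁ * u) = 1 := by rw [hunit1, map_one]
    rw [map_mul, h1, zero_mul] at h2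
    exact zero_ne_one h2
  · have h1 : π (βA.coeff g₂) = 0 := by
      have := congrArg (fun z => z.coeff g₂) h0
      simpa [Ψ, coeff_mapRingHom] using this
    have h2 : π (βA.coeff g₂ * v) = 1 := by rw [hunit2, map_one]
    rw [map_mul, h1, zero_mul] at h2
    exact zero_ne_one h2

theorem isJacobsonRing_int : IsJacobsonRing ℤ := by
  rw [isJacobsonRing_iff_prime_eq]
  intro P hP
  by_cases hbot : P = ⊥
  · subst hbot
    apply le_antisymm _ Ideal.le_jacobson
    intro x hx
    rw [Ideal.mem_jacobson_bot] at hx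
    have h1 := hx 1
    have h2 := hx 2
    rw [Int.isUnit_iff] at h1 h2
    rw [Ideal.mem_bot]
    omega
  · have hmax : P.IsMaximal := hP.isMaximal hbot
    exact Ideal.jacobson_eq_self_of_isMaximal

/-- A field which is finitely generated as a ring is finite. -/
theorem finite_of_finiteType_int (L : Type*) [Field L] [Algebra ℤ L] [Algebra.FiniteType ℤ L] :
    Finite L := by
  have := isJacobsonRing_int
  have h1 : @Module.Finite ℤ L _ _ Algebra.toModule :=
    finite_of_finite_type_of_isJacobsonRing ℤ L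
  have hint : Algebra.IsIntegral ℤ L := Algebra.IsIntegral.of_finite ℤ L
  have h2 : ∃ p : ℤ, p ≠ 0 ∧ algebraMap ℤ L p = 0 := by
    by_contra hall
    push Not at hall
    have hinj : Function.Injective (algebraMap ℤ L) := by
      rw [injective_iff_map_eq_zero]
      intro a ha
      by_contra hne
      exact hall a hne ha
    have hf : IsField ℤ :=
      (Algebra.IsIntegral.isField_iff_isField hinj).mpr (Field.toIsField L)
    exact Int.not_isField hf
  obtain ⟨p, hp, hp0⟩ := h2
  have htors : @Module.IsTorsion ℤ L _ _ Algebra.toModule := by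
    intro x
    refine ⟨⟨p, mem_nonZeroDivisors_of_ne_zero hp⟩, ?_⟩
    have h3 : algebraMap ℤ L p * x = 0 := by rw [hp0, zero_mul]
    exact (Algebra.smul_def p x).trans h3
  exact @Module.finite_of_fg_torsion L _ Algebra.toModule h1 htors

/-- Reduction of the zero divisor question for a fixed group to finite coefficient fields. -/
theorem reduce_to_finite
    (hF : ∀ (F : Type v) [Field F] [Finite F], NoZeroDivisors (MonoidAlgebra F G))
    (K : Type v) [Field K] : NoZeroDivisors (MonoidAlgebra K G) := by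
  classical
  refine ⟨fun {α β} h => ?_⟩
  by_contra hne
  push Not at hne
  obtain ⟨hα, hβ⟩ := hne
  obtain ⟨g₁, hg₁⟩ : ∃ g, α.coeff g ≠ 0 := by
    by_contra hall
    push Not at hall
    exact hα (MonoidAlgebra.coeff_injective (Finsupp.ext (by simpa using hall)))
  obtain ⟨g₂, hg₂⟩ : ∃ g, β.coeff g ≠ 0 := by
    by_contra hall
    push Not at hall
    exact hβ (MonoidAlgebra.coeff_injective (Finsupp.ext (by simpa using hall)))
  let T : Finset K := α.coeff.frange ∪ β.coeff.frange ∪ {(α.coeff g₁)⁻¹, (β.coeff g₂)⁻¹}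
  let R' : Subalgebra ℤ K := Algebra.adjoin ℤ (T : Set K)
  have hmem : ∀ z ∈ T, z ∈ R' := fun z hz => Algebra.subset_adjoin hz
  have hft : Algebra.FiniteType ℤ R' :=
    (Subalgebra.fg_iff_finiteType R').mp (Subalgebra.fg_adjoin_finset T)
  obtain ⟨m, hm⟩ := Ideal.exists_maximal R'
  let _ : Field (R' ⧸ m) := Ideal.Quotient.field m
  have hft2 : Algebra.FiniteType ℤ (R' ⧸ m) :=
    Algebra.FiniteType.of_surjective (Ideal.Quotient.mkₐ ℤ m)
      (Ideal.Quotient.mkₐ_surjective ℤ m)
  have hfin : Finite (R' ⧸ m) := finite_of_finiteType_int (R' ⧸ m)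
  have hDF := hF (R' ⧸ m)
  let ι : R' →+* K := R'.val.toRingHom
  have hι : Function.Injective ι := Subtype.val_injective
  have hrange : ∀ z : K, (z = 0 ∨ z ∈ T) → z ∈ Set.range ι := by
    intro z hz
    rcases hz with rfl | hz
    · exact ⟨0, map_zero _⟩
    · exact ⟨⟨z, hmem z hz⟩, rfl⟩
  refine spec_core (G := G) ι hι (Ideal.Quotient.mk m) α β h g₁ g₂
    ⟨(α.coeff g₁)⁻¹, hmem _ (by simp [T])⟩ ⟨(β.coeff g₂)⁻¹, hmem _ (by simp [T])⟩
    hg₁ hg₂ rfl rfl ?_ ?_
  · intro t
    apply hrange
    by_cases h0 : α.coeff t = 0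
    · exact Or.inl h0
    · right
      simp only [T, Finset.mem_union]
      left; left
      rw [Finsupp.mem_frange]
      exact ⟨h0, t, rfl⟩
  · intro t
    apply hrange
    by_cases h0 : β.coeff t = 0
    · exact Or.inl h0
    · right
      simp only [T, Finset.mem_union]
      left; right
      rw [Finsupp.mem_frange]
      exact ⟨h0, t, rfl⟩

end

end Vale.Agent.Lib.P201
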