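import Mathlib
import Vale.Agent.Lib.P201.Domain

namespace Vale.Agent.Lib.P201

open MonoidAlgebra

section Outlier

variable {K G : Type*} [Field K] [Group G]

/-- Inclusion of the group algebra of a subgroup. -/
noncomputable abbrev incl (N : Subgroup G) : MonoidAlgebra K N →+* MonoidAlgebra K G :=
  mapDomainRingHom K N.subtype

/-- The conjugation automorphism of a subgroup normalised by the powers of `x`. -/
def conjPow (N : Subgroup G) (x : G) (hx : ∀ (i : ℤ), ∀ s ∈ N, x ^ i * s * x ^ (-i) ∈ N) (i : ℤ) :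
    N ≃* N where
  toFun := fun t => ⟨x ^ i * t * x ^ (-i), hx i t t.2⟩
  invFun := fun t => ⟨x ^ (-i) * t * x ^ (- -i), hx (-i) t t.2⟩
  left_inv := fun t => by
    apply Subtype.ext
    simp only [zpow_neg, neg_neg]
    group
  right_inv := fun t => by
    apply Subtype.ext
    simp only [zpow_neg, neg_neg]
    group
  map_mul' := fun a b => by
    apply Subtype.ext
    simp only [zpow_neg, Subgroup.coe_mul]
    group

/-- Zero divisors with exactly one term outside a subgroup `N` whose group algebra is a domain: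
the part inside `N` must be a unit. -/
theorem outlier_left (x : G) (l : K) (hl : l ≠ 0) (N : Subgroup G)
    (hx : ∀ (i : ℤ), ∀ s ∈ N, x ^ i * s * x ^ (-i) ∈ N)
    (k : ℕ) (hk : 0 < k) (hxk : x ^ k ∈ N) [NoZeroDivisors (MonoidAlgebra K N)]
    (a : MonoidAlgebra K N) (ha : ¬ IsUnit a)
    (β : MonoidAlgebra K G) (h : (incl N a + single x l) * β = 0) : β = 0 := by
  classical
  by_contra hβ
  obtain ⟨g₀, hg₀⟩ : ∃ g, β.coeff g ≠ 0 := by
    by_contra hall
    push Not at hall
    exact hβ (MonoidAlgebra.coeff_injective (Finsupp.ext (by simpa using hall)))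
  let v : ℕ → MonoidAlgebra K N := slice N x g₀ β
  let σ : ℕ → MonoidAlgebra K N ≃+* MonoidAlgebra K N := fun i =>
    mapDomainRingEquiv K (conjPow N x hx (-(i : ℤ)))
  have hσcoef : ∀ (b : MonoidAlgebra K N) (i : ℕ) (t : N),
      (σ (i + 1) b * v (i + 1)).coeff t = (incl N b * β).coeff (x ^ (i + 1) * (t : G) * g₀) := by
    intro b i t
    induction b using MonoidAlgebra.induction_linear with
    | zero => simp
    | add b₁ b₂ h₁ h₂ =>
      rw [map_add, add_mul, coeff_add, Finsupp.add_apply, h₁, h₂, map_add, add_mul, coeff_add,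
        Finsupp.add_apply]
    | single s c =>
      have e1 : σ (i + 1) (single s c) = single (conjPow N x hx (-((i + 1 : ℕ) : ℤ)) s) c := by
        simp [σ, mapDomainRingEquiv_single]
      have e2 : incl N (single s c) = (single (s : G) c : MonoidAlgebra K G) := by
        simp [incl]
      rw [e1, e2, coeff_single_mul_apply, coeff_single_mul_apply]
      congr 1
      show β.coeff (x ^ (i + 1) * (((conjPow N x hx (-((i + 1 : ℕ) : ℤ)) s)⁻¹ * t : N) : G) * g₀) = _
      congr 1
      have e3 : (((conjPow N x hx (-((i + 1 : ℕ) : ℤ)) s)⁻¹ * t : N) : G) =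
          (x ^ (-((i + 1 : ℕ) : ℤ)) * (s : G) * x ^ (- -((i + 1 : ℕ) : ℤ)))⁻¹ * (t : G) := rfl
      rw [e3]
      simp only [zpow_neg, neg_neg, zpow_natCast]
      group
  have hR : ∀ i : ℕ, σ (i + 1) a * v (i + 1) = (-l) • v i := by
    intro i
    apply MonoidAlgebra.coeff_injective
    ext t
    show (σ (i + 1) a * v (i + 1)).coeff t = ((-l) • v i).coeff t
    rw [hσcoef]
    have h1 := congrArg (fun z => z.coeff (x ^ (i + 1) * (t : G) * g₀)) h
    simp only [add_mul, coeff_add, Finsupp.add_apply, coeff_single_mul_apply, coeff_zero,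
      Finsupp.coe_zero, Pi.zero_apply] at h1
    have hval2 : x⁻¹ * (x ^ (i + 1) * (t : G) * g₀) = x ^ i * (t : G) * g₀ := by
      rw [pow_succ']
      group
    rw [hval2] at h1
    rw [coeff_smul_apply]
    show _ = (-l) • β.coeff (x ^ i * (t : G) * g₀)
    rw [smul_eq_mul, neg_mul]
    exact eq_neg_of_add_eq_zero_left h1
  let P : ℕ → MonoidAlgebra K N :=
    fun j => (List.range j).foldl (fun acc i => acc * σ (i + 1) a) 1
  have hPsucc : ∀ j, P (j + 1) = P j * σ (j + 1) a := by
    intro j
    show (List.range (j + 1)).foldl _ _ = _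
    rw [List.range_succ, List.foldl_append]
    rfl
  have hP0 : P 0 = 1 := rfl
  have hchain : ∀ j : ℕ, (-l) ^ j • v 0 = P j * v j := by
    intro j
    induction j with
    | zero => simp [hP0]
    | succ j ih =>
      rw [hPsucc, mul_assoc, hR, mul_smul_comm, ← ih, smul_smul]
      ring_nf
  let X : N := ⟨x ^ k, hxk⟩
  have hvk : v k = single X⁻¹ 1 * v 0 := by
    apply MonoidAlgebra.coeff_injective
    ext t
    show β.coeff (x ^ k * (t : G) * g₀) = (single X⁻¹ 1 * v 0).coeff t
    rw [coeff_single_mul_apply, one_mul, inv_inv]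
    show _ = β.coeff (x ^ 0 * ((X * t : N) : G) * g₀)
    simp [X]
  have hv0 : v 0 ≠ 0 := by
    intro h0
    have h1 := congrArg (fun z => z.coeff (1 : N)) h0
    have h2 : (v 0).coeff (1 : N) = β.coeff g₀ := by
      show β.coeff (x ^ 0 * ((1 : N) : G) * g₀) = _
      simp
    rw [h2] at h1
    exact hg₀ (by simpa using h1)
  have hmain := hchain k
  rw [hvk, ← mul_assoc] at hmain
  have hfac : ((-l) ^ k • (1 : MonoidAlgebra K N) - P k * single X⁻¹ 1) * v 0 = 0 := by
    rw [sub_mul, smul_mul_assoc, one_mul, hmain, sub_self]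
  have hunit : (-l) ^ k • (1 : MonoidAlgebra K N) = P k * single X⁻¹ 1 := by
    rcases mul_eq_zero.mp hfac with h1 | h1
    · exact sub_eq_zero.mp h1
    · exact absurd h1 hv0
  have hstart : ∀ j : ℕ, ∃ Q, P (j + 1) = σ 1 a * Q := by
    intro j
    induction j with
    | zero => exact ⟨1, by rw [hPsucc, hP0]; simp⟩
    | succ j ih =>
      obtain ⟨Q, hQ⟩ := ih
      exact ⟨Q * σ (j + 1 + 1) a, by rw [hPsucc, hQ, mul_assoc]⟩
  obtain ⟨k', rfl⟩ : ∃ k', k = k' + 1 := ⟨k - 1, by omega⟩
  obtain ⟨Q, hQ⟩ := hstart k'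
  have hlk : ((-l) ^ (k' + 1)) ≠ 0 := pow_ne_zero _ (neg_ne_zero.mpr hl)
  have hinv : σ 1 a * (((-l) ^ (k' + 1))⁻¹ • (Q * single X⁻¹ 1)) = 1 := by
    rw [mul_smul_comm, ← mul_assoc, ← hQ, ← hunit, smul_smul, inv_mul_cancel₀ hlk, one_smul]
  -- transport back to `a`
  have hinv2 : a * (σ 1).symm (((-l) ^ (k' + 1))⁻¹ • (Q * single X⁻¹ 1)) = 1 := by
    have := congrArg (σ 1).symm hinv
    rwa [map_mul, RingEquiv.symm_apply_apply, map_one] at this
  set u := (σ 1).symm (((-l) ^ (k' + 1))⁻¹ • (Q * single X⁻¹ 1)) with hu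
  have ha0 : a ≠ 0 := by
    intro hz
    rw [hz, zero_mul] at hinv2
    exact zero_ne_one hinv2
  have hinv3 : u * a = 1 := by
    have h3 : a * (u * a - 1) = 0 := by
      rw [mul_sub, ← mul_assoc, hinv2, one_mul, mul_one, sub_self]
    rcases mul_eq_zero.mp h3 with h4 | h4
    · exact absurd h4 ha0
    · exact sub_eq_zero.mp h4
  exact ha ⟨⟨a, u, hinv2, hinv3⟩, rfl⟩

theorem anti_incl (N : Subgroup G) (a : MonoidAlgebra K N) :
    anti (incl N a) = incl N (anti a) := by
  induction a using MonoidAlgebra.induction_linear with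
  | zero => simp
  | add x y hx hy => rw [map_add, map_add, map_add, map_add, hx, hy]
  | single s c =>
    have e2 : ∀ (t : N) (d : K), incl N (single t d) = (single (t : G) d : MonoidAlgebra K G) := by
      intro t d
      simp [incl]
    rw [e2, anti_single, anti_single, e2]
    simp

theorem anti_anti (a : MonoidAlgebra K G) : anti (anti a) = a := by
  induction a using MonoidAlgebra.induction_linear with
  | zero => simp
  | add x y hx hy => rw [map_add, map_add, hx, hy]
  | single s c => rw [anti_single, anti_single, inv_inv]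

theorem anti_one : anti (1 : MonoidAlgebra K G) = 1 := by
  rw [one_def, anti_single, inv_one]

theorem isUnit_of_anti (a : MonoidAlgebra K G) (h : IsUnit (anti a)) : IsUnit a := by
  obtain ⟨u, hu⟩ := h
  have h1 : anti a * (u⁻¹ : (MonoidAlgebra K G)ˣ) = 1 := by
    rw [← hu]; exact u.mul_inv
  have h2 : ((u⁻¹ : (MonoidAlgebra K G)ˣ) : MonoidAlgebra K G) * anti a = 1 := by
    rw [← hu]; exact u.inv_mul
  have h3 := congrArg anti h1
  have h4 := congrArg anti h2
  rw [anti_mul, anti_anti, anti_one] at h3 h4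
  exact ⟨⟨a, anti ((u⁻¹ : (MonoidAlgebra K G)ˣ) : MonoidAlgebra K G), h4, h3⟩, rfl⟩

/-- The two sided statement for elements with one term outside a normal subgroup of finite index
whose group algebra is a domain. -/
theorem outlier_both (x : G) (l : K) (hl : l ≠ 0) (L : Subgroup G) [L.Normal] [L.FiniteIndex]
    [NoZeroDivisors (MonoidAlgebra K L)]
    (a : MonoidAlgebra K L) (ha : ¬ IsUnit a)
    (β : MonoidAlgebra K G)
    (h : (incl L a + single x l) * β = 0 ∨ β * (incl L a + single x l) = 0) : β = 0 := by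
  have hconj : ∀ t : G, ∀ (i : ℤ), ∀ s ∈ L, t ^ i * s * t ^ (-i) ∈ L := by
    intro t i s hs
    rw [zpow_neg]
    exact ‹L.Normal›.conj_mem s hs _
  have hpow : ∀ t : G, ∃ k : ℕ, 0 < k ∧ t ^ k ∈ L := by
    intro t
    obtain ⟨k, hk, _, hkL⟩ :=
      Subgroup.exists_pow_mem_of_index_ne_zero (Subgroup.FiniteIndex.index_ne_zero (H := L)) t
    exact ⟨k, hk, hkL⟩
  rcases h with h | h
  · obtain ⟨k, hk, hkL⟩ := hpow x
    exact outlier_left x l hl L (hconj x) k hk hkL a ha β h
  · have h1 : (incl L (anti a) + single x⁻¹ l) * anti β = 0 := by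
      have h2 := congrArg anti h
      rw [anti_mul, map_add, anti_incl, anti_single, map_zero] at h2
      exact h2
    obtain ⟨k, hk, hkL⟩ := hpow x⁻¹
    have h3 := outlier_left x⁻¹ l hl L (hconj x⁻¹) k hk hkL (anti a)
      (fun hu => ha (isUnit_of_anti a hu)) (anti β) h1
    exact anti_eq_zero h3

end Outlier

end Vale.Agent.Lib.P201
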