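import Mathlib
import Vale.Agent.Lib.P201.Domain

namespace Vale.Agent.Lib.P201

open MonoidAlgebra

section Sup

variable {K G : Type*} [Field K] [Group G]

/-- `Good x y` says that all normalised elements with support `1, x, y` are not left zero
divisors. -/
def Good (K : Type*) [Field K] {G : Type*} [Group G] (x y : G) : Prop :=
  ∀ l m : K, l ≠ 0 → m ≠ 0 → ∀ β : MonoidAlgebra K G,
    (single 1 1 + single x l + single y m) * β = 0 → β = 0

theorem three_of_good (x y : G) (a b c : K) (ha : a ≠ 0) (hb : b ≠ 0) (hc : c ≠ 0)
    (hg : Good K y x ∨ Good K x y ∨ Good K x⁻¹ (x⁻¹ * y))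
    (β : MonoidAlgebra K G) (h : (single 1 a + single x b + single y c) * β = 0) : β = 0 := by
  rcases hg with hg | hg | hg
  · have h1 : (single 1 1 + single y (a⁻¹ * c) + single x (a⁻¹ * b)) * β = 0 := by
      have h2 : single 1 1 + single y (a⁻¹ * c) + single x (a⁻¹ * b) =
          single (1 : G) a⁻¹ * (single 1 a + single x b + single y c) := by
        rw [mul_add, mul_add, single_mul_single, single_mul_single, single_mul_single]
        simp only [one_mul, inv_mul_cancel₀ ha]
        abel
      rw [h2, mul_assoc, h, mul_zero]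
    exact hg _ _ (mul_ne_zero (inv_ne_zero ha) hc) (mul_ne_zero (inv_ne_zero ha) hb) β h1
  · have h1 : (single 1 1 + single x (a⁻¹ * b) + single y (a⁻¹ * c)) * β = 0 := by
      have h2 : single 1 1 + single x (a⁻¹ * b) + single y (a⁻¹ * c) =
          single (1 : G) a⁻¹ * (single 1 a + single x b + single y c) := by
        rw [mul_add, mul_add, single_mul_single, single_mul_single, single_mul_single]
        simp only [one_mul, inv_mul_cancel₀ ha]
      rw [h2, mul_assoc, h, mul_zero]
    exact hg _ _ (mul_ne_zero (inv_ne_zero ha) hb) (mul_ne_zero (inv_ne_zero ha) hc) β h1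
  · have h1 : (single 1 1 + single x⁻¹ (b⁻¹ * a) + single (x⁻¹ * y) (b⁻¹ * c)) * β = 0 := by
      have h2 : single 1 1 + single x⁻¹ (b⁻¹ * a) + single (x⁻¹ * y) (b⁻¹ * c) =
          single x⁻¹ b⁻¹ * (single 1 a + single x b + single y c) := by
        rw [mul_add, mul_add, single_mul_single, single_mul_single, single_mul_single]
        simp only [mul_one, inv_mul_cancel, inv_mul_cancel₀ hb]
        abel
      rw [h2, mul_assoc, h, mul_zero]
    exact hg _ _ (mul_ne_zero (inv_ne_zero hb) ha) (mul_ne_zero (inv_ne_zero hb) hc) β h1

/-- Shape of an element with at most three terms. -/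
theorem exists_form (α : MonoidAlgebra K G) (hα : α ≠ 0) (hcard : α.coeff.support.card ≤ 3) :
    (∃ g c, c ≠ 0 ∧ α = single g c) ∨
    (∃ g z a b, z ≠ 1 ∧ a ≠ 0 ∧ b ≠ 0 ∧ α = single g 1 * (single 1 a + single z b)) ∨
    (∃ g x y a b c, x ≠ 1 ∧ y ≠ 1 ∧ x ≠ y ∧ a ≠ 0 ∧ b ≠ 0 ∧ c ≠ 0 ∧
      α = single g 1 * (single 1 a + single x b + single y c)) := by
  classical
  have hsum : ∀ s : Finset G, α.coeff.support = s → α = ∑ g ∈ s, single g (α.coeff g) := by
    intro s hs
    apply MonoidAlgebra.coeff_injective
    rw [coeff_sum]
    ext t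
    simp only [coeff_single, Finsupp.coe_finsetSum, Finset.sum_apply, Finsupp.single_apply]
    rw [Finset.sum_ite_eq' s t]
    split_ifs with h
    · rfl
    · rw [← hs] at h
      simpa using h
  have hcpos : α.coeff.support.card ≠ 0 := by
    intro h0
    rw [Finset.card_eq_zero] at h0
    apply hα
    apply MonoidAlgebra.coeff_injective
    simpa using h0
  have hmem : ∀ g ∈ α.coeff.support, α.coeff g ≠ 0 := fun g hg => by simpa using hg
  have hcases : α.coeff.support.card = 1 ∨ α.coeff.support.card = 2 ∨
      α.coeff.support.card = 3 := by omega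
  rcases hcases with h1 | h2 | h3
  · left
    obtain ⟨g, hg⟩ := Finset.card_eq_one.mp h1
    refine ⟨g, α.coeff g, hmem g (by simp [hg]), ?_⟩
    have := hsum _ hg
    simpa using this
  · right; left
    obtain ⟨g, z, hne, hs⟩ := Finset.card_eq_two.mp h2
    refine ⟨g, g⁻¹ * z, α.coeff g, α.coeff z, ?_, hmem g (by simp [hs]), hmem z (by simp [hs]), ?_⟩
    · intro he
      apply hne
      have := congrArg (fun t => g * t) he
      simpa using this.symm
    · have := hsum _ hs
      rw [Finset.sum_pair hne] at this
      have e : single g 1 * (single 1 (α.coeff g) + single (g⁻¹ * z) (α.coeff z)) =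
          single g (α.coeff g) + single z (α.coeff z) := by
        rw [mul_add, single_mul_single, single_mul_single]
        simp
      rw [e]
      exact this
  · right; right
    obtain ⟨g, x, y, h12, h13, h23, hs⟩ := Finset.card_eq_three.mp h3
    refine ⟨g, g⁻¹ * x, g⁻¹ * y, α.coeff g, α.coeff x, α.coeff y, ?_, ?_, ?_,
      hmem g (by simp [hs]), hmem x (by simp [hs]), hmem y (by simp [hs]), ?_⟩
    · intro he
      apply h12
      have := congrArg (fun t => g * t) he
      simpa using this.symm
    · intro he
      apply h13
      have := congrArg (fun t => g * t) he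
      simpa using this.symm
    · intro he
      exact h23 (mul_left_cancel he)
    · have := hsum _ hs
      rw [Finset.sum_insert (by simp [h12, h13]), Finset.sum_pair h23] at this
      have e : single g 1 * (single 1 (α.coeff g) + single (g⁻¹ * x) (α.coeff x) +
          single (g⁻¹ * y) (α.coeff y)) =
          single g (α.coeff g) + (single x (α.coeff x) + single y (α.coeff y)) := by
        rw [mul_add, mul_add, single_mul_single, single_mul_single, single_mul_single]
        simp only [mul_one, mul_inv_cancel_left, one_mul]
        abel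
      rw [e]
      exact this

theorem single_left_cancel (g : G) (c : K) (hc : c ≠ 0) (β : MonoidAlgebra K G)
    (h : single g c * β = 0) : β = 0 := by
  have h1 : single g⁻¹ c⁻¹ * (single g c * β) = β := by
    rw [← mul_assoc, single_mul_single, inv_mul_cancel, inv_mul_cancel₀ hc]
    exact one_mul β
  rw [← h1, h, mul_zero]

/-- Reduction of both sided statements to left statements via the antipode. -/
theorem anti_card (α : MonoidAlgebra K G) : (anti α).coeff.support.card = α.coeff.support.card := by
  classical
  have h1 : (anti α).coeff.support = α.coeff.support.image (fun g => g⁻¹) := by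
    ext t
    have h2 : (anti α).coeff t = α.coeff t⁻¹ := by
      simp [anti, coeff_mapDomainAddEquiv]
    simp only [Finsupp.mem_support_iff, h2, Finset.mem_image]
    constructor
    · intro h3
      exact ⟨t⁻¹, h3, by simp⟩
    · rintro ⟨g, h3, rfl⟩
      simpa using h3
  rw [h1, Finset.card_image_of_injective _ inv_injective]

theorem anti_ne_zero (α : MonoidAlgebra K G) (hα : α ≠ 0) : anti α ≠ 0 := fun h =>
  hα (anti_eq_zero h)

end Sup

section IndexTwo

variable {K G : Type*} [Field K] [Group G]

/-- Torsion free, index two subgroup with group algebra a domain: no zero divisors with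
at most three terms, left version. -/
theorem index_two_left (hG : ∀ g : G, g ≠ 1 → orderOf g = 0) (L : Subgroup G) (hL : L.index = 2)
    [NoZeroDivisors (MonoidAlgebra K L)]
    (α : MonoidAlgebra K G) (hα : α ≠ 0) (hcard : α.coeff.support.card ≤ 3)
    (β : MonoidAlgebra K G) (h : α * β = 0) : β = 0 := by
  have hnormal : L.Normal := Subgroup.normal_of_index_eq_two hL
  have hconj : ∀ t : G, ∀ (i : ℤ), ∀ s ∈ L, t ^ i * s * t ^ (-i) ∈ L := by
    intro t i s hs
    rw [zpow_neg]
    exact hnormal.conj_mem s hs _
  have hsq : ∀ t : G, t ^ 2 ∈ L := fun t => Subgroup.sq_mem_of_index_two hL t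
  rcases exists_form α hα hcard with ⟨g, c, hc, rfl⟩ | ⟨g, z, a, b, hz, ha, hb, rfl⟩ |
    ⟨g, x, y, a, b, c, hx, hy, hxy, ha, hb, hc, rfl⟩
  · exact single_left_cancel g c hc β h
  · rw [mul_assoc] at h
    have h1 := single_left_cancel g 1 one_ne_zero _ h
    exact binomial_left z (hG z hz) a b ha hb β h1
  · rw [mul_assoc] at h
    have h1 := single_left_cancel g 1 one_ne_zero _ h
    refine three_of_good x y a b c ha hb hc ?_ β h1
    by_cases hxL : x ∈ L
    · left
      intro l m hl hm β' h2
      exact domain_core y x l m hl hm (hG x hx) L (hconj y) hxL 2 (by norm_num) (hsq y) β' h2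
    · by_cases hyL : y ∈ L
      · right; left
        intro l m hl hm β' h2
        exact domain_core x y l m hl hm (hG y hy) L (hconj x) hyL 2 (by norm_num) (hsq x) β' h2
      · right; right
        have hxiL : x⁻¹ ∉ L := fun h3 => hxL (by simpa using L.inv_mem h3)
        have hmem : x⁻¹ * y ∈ L := by
          have := (Subgroup.mul_mem_iff_of_index_two hL (a := x⁻¹) (b := y)).mpr
          exact this (iff_of_false hxiL hyL)
        have hne : x⁻¹ * y ≠ 1 := by
          intro he
          apply hxy
          have := congrArg (fun t => x * t) he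
          simpa using this.symm
        intro l m hl hm β' h2
        exact domain_core x⁻¹ (x⁻¹ * y) l m hl hm (hG _ hne) L (hconj x⁻¹) hmem 2 (by norm_num)
          (hsq x⁻¹) β' h2

/-- Both sided version of the index two theorem. -/
theorem index_two (hG : ∀ g : G, g ≠ 1 → orderOf g = 0) (L : Subgroup G) (hL : L.index = 2)
    [NoZeroDivisors (MonoidAlgebra K L)]
    (α : MonoidAlgebra K G) (hα : α ≠ 0) (hcard : α.coeff.support.card ≤ 3)
    (β : MonoidAlgebra K G) (h : α * β = 0 ∨ β * α = 0) : β = 0 := by
  rcases h with h | h
  · exact index_two_left hG L hL α hα hcard β h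
  · have h1 : anti α * anti β = 0 := by
      rw [← anti_mul, h, map_zero]
    have h2 := index_two_left hG L hL (anti α) (anti_ne_zero α hα)
      (by rw [anti_card]; exact hcard) (anti β) h1
    exact anti_eq_zero h2

end IndexTwo

end Vale.Agent.Lib.P201
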