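import Mathlib
import Vale.Agent.Lib.P201.Support

namespace Vale.Agent.Lib.P201

open MonoidAlgebra

section Part

variable {K G : Type*} [Field K] [Group G]

/-- Restriction of an element of the group algebra to a subset of the group. -/
noncomputable def part (p : G → Prop) (x : MonoidAlgebra K G) : MonoidAlgebra K G :=
  open Classical in ofCoeff (x.coeff.filter p)

theorem part_coeff (p : G → Prop) (x : MonoidAlgebra K G) (g : G) :
    (part p x).coeff g = open Classical in if p g then x.coeff g else 0 := by
  classical
  simp [part, Finsupp.filter_apply]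

/-- The product of the top parts of a product. -/
theorem top_mul (ψ f : G → ℤ) (α β : MonoidAlgebra K G)
    (hf : ∀ a, α.coeff a ≠ 0 → ∀ g, f (a * g) = ψ a + f g)
    (M M' : ℤ) (hM : ∀ a, α.coeff a ≠ 0 → ψ a ≤ M) (hM' : ∀ g, β.coeff g ≠ 0 → f g ≤ M')
    (h : α * β = 0) : part (fun a => ψ a = M) α * part (fun g => f g = M') β = 0 := by
  classical
  apply MonoidAlgebra.coeff_injective
  ext g
  show (part (fun a => ψ a = M) α * part (fun g => f g = M') β).coeff g = 0
  have hsub : (part (fun a => ψ a = M) α).coeff.support ⊆ α.coeff.support := by
    intro a ha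
    rw [Finsupp.mem_support_iff, part_coeff] at ha
    rw [Finsupp.mem_support_iff]
    intro h0
    apply ha
    split_ifs
    · exact h0
    · rfl
  rw [coeff_mul_apply_left, Finsupp.sum_of_support_subset _ hsub _ (fun _ _ => by simp)]
  by_cases hg : f g = M + M'
  · have h1 := congrArg (fun z => z.coeff g) h
    simp only [coeff_zero, Finsupp.coe_zero, Pi.zero_apply] at h1
    rw [coeff_mul_apply_left, Finsupp.sum] at h1
    rw [← h1]
    apply Finset.sum_congr rfl
    intro a ha
    have hane : α.coeff a ≠ 0 := by simpa using ha
    have hfa := hf a hane (a⁻¹ * g)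
    rw [mul_inv_cancel_left] at hfa
    rw [part_coeff, part_coeff]
    by_cases hψ : ψ a = M
    · have : f (a⁻¹ * g) = M' := by omega
      simp [hψ, this]
    · have hlt : ψ a < M := lt_of_le_of_ne (hM a hane) hψ
      have hgt : M' < f (a⁻¹ * g) := by omega
      have hz : β.coeff (a⁻¹ * g) = 0 := by
        by_contra hne
        have := hM' _ hne
        omega
      simp [hψ, hz]
  · apply Finset.sum_eq_zero
    intro a ha
    have hane : α.coeff a ≠ 0 := by simpa using ha
    have hfa := hf a hane (a⁻¹ * g)
    rw [mul_inv_cancel_left] at hfa
    rw [part_coeff, part_coeff]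
    by_cases hψ : ψ a = M
    · have : f (a⁻¹ * g) ≠ M' := by omega
      simp [this]
    · simp [hψ]

end Part

section SmallHigman

variable {K G : Type*} [Field K] [Group G]

/-- If all nontrivial subgroups generated by at most `k` elements have a nonzero homomorphism to
the integers, then no element with at most `k + 1` terms is a left zero divisor. -/
theorem higman_left (k : ℕ)
    (hG : ∀ S : Finset G, S.card ≤ k → (∃ s ∈ S, s ≠ 1) →
      ∃ φ : Subgroup.closure (S : Set G) →* Multiplicative ℤ, φ ≠ 1) :
    ∀ n, n ≤ k + 1 → ∀ α : MonoidAlgebra K G, α.coeff.support.card = n → α ≠ 0 →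
      ∀ β : MonoidAlgebra K G, α * β = 0 → β = 0 := by
  classical
  intro n
  induction n using Nat.strong_induction_on with
  | _ n ih =>
    intro hn α hcard hα β h
    by_contra hβ
    -- a point of the support
    obtain ⟨g₀, hg₀⟩ : ∃ g, α.coeff g ≠ 0 := by
      by_contra hall
      push Not at hall
      exact hα (MonoidAlgebra.coeff_injective (Finsupp.ext (by simpa using hall)))
    -- normalise
    let α' : MonoidAlgebra K G := single g₀⁻¹ 1 * α
    have hα'c : ∀ g, α'.coeff g = α.coeff (g₀ * g) := by
      intro g
      simp [α', coeff_single_mul_apply]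
    have hα'1 : α'.coeff 1 ≠ 0 := by
      rw [hα'c]
      simpa using hg₀
    have hcard' : α'.coeff.support.card = n := by
      have h1 : α'.coeff.support = α.coeff.support.image (fun g => g₀⁻¹ * g) := by
        ext t
        simp only [Finsupp.mem_support_iff, hα'c, Finset.mem_image]
        constructor
        · intro h2
          exact ⟨g₀ * t, h2, by simp⟩
        · rintro ⟨g, h2, rfl⟩
          simpa using h2
      rw [h1, Finset.card_image_of_injective _ (mul_right_injective _), hcard]
    have h' : α' * β = 0 := by
      simp only [α']
      rw [mul_assoc, h, mul_zero]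
    have hne' : α' ≠ 0 := by
      intro hz
      apply hα'1
      rw [hz]
      simp
    set S : Finset G := α'.coeff.support.erase 1 with hS
    have hScard : S.card = n - 1 := by
      rw [hS, Finset.card_erase_of_mem (by simpa using hα'1), hcard']
    have hmemS : ∀ g, α'.coeff g ≠ 0 → g = 1 ∨ g ∈ S := by
      intro g hg
      by_cases h1 : g = 1
      · exact Or.inl h1
      · right
        rw [hS, Finset.mem_erase]
        exact ⟨h1, by simpa using hg⟩
    by_cases hSne : ∃ s ∈ S, s ≠ 1
    · let H : Subgroup G := Subgroup.closure (S : Set G)
      obtain ⟨φ, hφ⟩ : ∃ φ : H →* Multiplicative ℤ, φ ≠ 1 := hG S (by omega) hSne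
      have hSH : ∀ s ∈ S, s ∈ H := fun s hs => Subgroup.subset_closure hs
      let ψ : G → ℤ := totalize H φ
      have hψmul : ∀ u ∈ H, ∀ v ∈ H, ψ (u * v) = ψ u + ψ v := totalize_mul H φ
      have hψ1 : ψ 1 = 0 := by
        have := hψmul 1 H.one_mem 1 H.one_mem
        simp only [mul_one] at this
        omega
      -- some generator has nonzero image
      have hs₀ : ∃ s ∈ S, ψ s ≠ 0 := by
        by_contra hall
        push Not at hall
        have hinv : ∀ u ∈ H, ψ u⁻¹ = - ψ u := by
          intro u hu
          have := hψmul u hu u⁻¹ (H.inv_mem hu)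
          rw [mul_inv_cancel, hψ1] at this
          omega
        have hzero : ∀ u ∈ H, ψ u = 0 := by
          intro u hu
          induction hu using Subgroup.closure_induction with
          | mem a ha => exact hall a ha
          | one => exact hψ1
          | mul a b ha hb iha ihb => rw [hψmul a ha b hb, iha, ihb, add_zero]
          | inv a ha iha => rw [hinv a ha, iha, neg_zero]
        obtain ⟨u, hu, hu0⟩ := totalize_ne H φ hφ
        exact hu0 (hzero u hu)
      obtain ⟨s₀, hs₀S, hs₀ψ⟩ := hs₀
      have hsuppH : ∀ a, α'.coeff a ≠ 0 → a ∈ H := by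
        intro a ha
        rcases hmemS a ha with rfl | h1
        · exact H.one_mem
        · exact hSH a h1
      let f : G → ℤ := fun g => ψ (rightPart H g)
      have hf : ∀ a, α'.coeff a ≠ 0 → ∀ g, f (a * g) = ψ a + f g := by
        intro a ha g
        show ψ (rightPart H (a * g)) = ψ a + ψ (rightPart H g)
        rw [rightPart_mul H (hsuppH a ha), hψmul _ (hsuppH a ha) _ (rightPart_mem H g)]
      -- the maxima
      obtain ⟨a₁, ha₁, hmax₁⟩ := Finset.exists_max_image α'.coeff.support ψ
        ⟨1, by simpa using hα'1⟩
      have hbne : β.coeff.support.Nonempty := by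
        by_contra hemp
        rw [Finset.not_nonempty_iff_eq_empty, Finsupp.support_eq_empty] at hemp
        exact hβ (MonoidAlgebra.coeff_injective (by simpa using hemp))
      obtain ⟨b₁, hb₁, hmax₂⟩ := Finset.exists_max_image β.coeff.support f hbne
      have htop := top_mul ψ f α' β hf (ψ a₁) (f b₁)
        (fun a ha => hmax₁ a (by simpa using ha)) (fun g hg => hmax₂ g (by simpa using hg)) h'
      -- the parts
      let A := part (fun a => ψ a = ψ a₁) α'
      let B := part (fun g => f g = f b₁) β
      have hAc : A.coeff a₁ ≠ 0 := by
        simp only [A]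
        rw [part_coeff]
        simpa using ha₁
      have hBc : B.coeff b₁ ≠ 0 := by
        simp only [B]
        rw [part_coeff]
        simpa using hb₁
      have hA0 : A ≠ 0 := fun hz => hAc (by rw [hz]; simp)
      have hB0 : B ≠ 0 := fun hz => hBc (by rw [hz]; simp)
      have hsubA : A.coeff.support ⊆ α'.coeff.support := by
        intro a ha
        simp only [A, Finsupp.mem_support_iff, part_coeff] at ha
        rw [Finsupp.mem_support_iff]
        intro h0
        apply ha
        split_ifs
        · exact h0
        · rfl
      have hcardlt : A.coeff.support.card < n := by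
        rw [← hcard']
        apply Finset.card_lt_card
        refine ⟨hsubA, fun hsup => ?_⟩
        have hs₀mem : s₀ ∈ α'.coeff.support := (Finset.mem_erase.mp hs₀S).2
        have h1 := hsup (show (1 : G) ∈ α'.coeff.support by simpa using hα'1)
        have h2 := hsup hs₀mem
        simp only [A, Finsupp.mem_support_iff, part_coeff] at h1 h2
        have h3 : ψ 1 = ψ a₁ := by
          by_contra hc
          exact h1 (by simp [hc])
        have h4 : ψ s₀ = ψ a₁ := by
          by_contra hc
          exact h2 (by simp [hc])
        rw [hψ1] at h3
        omega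
      have := ih A.coeff.support.card hcardlt (by omega) A rfl hA0 B htop
      exact hB0 this
    · -- the normalised element is a monomial
      push Not at hSne
      have hmono : α' = single 1 (α'.coeff 1) := by
        apply MonoidAlgebra.coeff_injective
        ext g
        by_cases hg : g = 1
        · subst hg
          simp
        · have h2 : α'.coeff g = 0 := by
            by_contra hne
            rcases hmemS g hne with h3 | h3
            · exact hg h3
            · exact hg (hSne g h3)
          simp only [coeff_single]
          rw [h2, Finsupp.single_apply]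
          have : ¬ ((1 : G) = g) := fun h' => hg h'.symm
          simp [this]
      rw [hmono] at h'
      exact hβ (single_left_cancel 1 _ hα'1 β h')

/-- Both sided statement. -/
theorem higman_both (k : ℕ)
    (hG : ∀ S : Finset G, S.card ≤ k → (∃ s ∈ S, s ≠ 1) →
      ∃ φ : Subgroup.closure (S : Set G) →* Multiplicative ℤ, φ ≠ 1)
    (α : MonoidAlgebra K G) (hα : α ≠ 0) (hcard : α.coeff.support.card ≤ k + 1)
    (β : MonoidAlgebra K G) (h : α * β = 0 ∨ β * α = 0) : β = 0 := by
  rcases h with h | h
  · exact higman_left k hG _ hcard α rfl hα β h
  · have h1 : anti α * anti β = 0 := by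
      rw [← anti_mul, h, map_zero]
    have h2 := higman_left k hG _ (by rw [anti_card]; exact hcard) (anti α) rfl
      (anti_ne_zero α hα) (anti β) h1
    exact anti_eq_zero h2

end SmallHigman

end Vale.Agent.Lib.P201
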